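import Vale.Agent.P254.Defs

/-! P254: BATH, the bathtub argument. -/

namespace Vale.P254.BATH

open MeasureTheory Set Pointwise

/-- the box -/
def Q {n : ℕ} (r : Fin n → ℝ) : Set (Fin n → ℝ) := Set.pi univ fun j => Icc 0 (r j)

theorem restr {n : ℕ} (r : Fin n → ℝ) :
    (volume : Measure (Fin n → ℝ)).restrict (Q r) =
      Measure.pi fun j => (volume : Measure ℝ).restrict (Icc 0 (r j)) := by
  rw [volume_pi]
  exact Measure.restrict_pi_pi _ _

theorem fubini {n : ℕ} (r : Fin n → ℝ) (hr : ∀ i, 0 < r i) (i : Fin n) (f : ℝ → ℝ) :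
    ∫ x in Q r, f (x i) = (∏ j, r j) * ((∫ u in (0 : ℝ)..(r i), f u) / r i) := by
  rw [restr]
  have h2 : (fun x : Fin n → ℝ => f (x i)) =
      fun x => ∏ j, (fun (j : Fin n) (u : ℝ) => if j = i then f u else 1) j (x j) := by
    funext x
    show f (x i) = ∏ j, (if j = i then f (x j) else 1)
    rw [Finset.prod_ite_eq', if_pos (Finset.mem_univ i)]
  rw [h2]
  refine (integral_fintype_prod_eq_prod (𝕜 := ℝ)
    (μ := fun j => (volume : Measure ℝ).restrict (Icc 0 (r j)))
    (fun (j : Fin n) (u : ℝ) => if j = i then f u else 1)).trans ?_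
  have h3 : ∀ j, (∫ u in Icc 0 (r j), (if j = i then f u else 1)) =
      r j * (if j = i then (∫ u in (0 : ℝ)..(r j), f u) / r j else 1) := by
    intro j
    have hj := hr j
    by_cases hji : j = i
    · simp only [if_pos hji]
      rw [integral_Icc_eq_integral_Ioc, ← intervalIntegral.integral_of_le hj.le]
      field_simp
    · simp only [if_neg hji]
      rw [setIntegral_const, Real.volume_real_Icc_of_le hj.le]
      simp
  rw [Finset.prod_congr rfl fun j _ => h3 j, Finset.prod_mul_distrib, Finset.prod_ite_eq',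
    if_pos (Finset.mem_univ i)]

theorem vol_Q {n : ℕ} (r : Fin n → ℝ) (hr : ∀ i, 0 < r i) : vol (Q r) = ∏ j, r j := by
  have h : Q r = Icc (fun _ => 0) r := Set.pi_univ_Icc _ _
  rw [h, vol, Real.volume_Icc_pi_toReal (fun i => (hr i).le)]
  simp

theorem thm : StmtBATH := by
  intro n a φ hO hC r hr hra hav
  set C := posPart a φ with hCdef
  set Ψ : (Fin n → ℝ) → ℝ := fun x => ∑ i, φ i (x i) with hΨ
  have hQB : Q r ⊆ Q a := pi_mono fun j _ => Icc_subset_Icc_right (hra j)
  have hCB : C ⊆ Q a := fun x hx j _ => hx.1 j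
  have hcont : ∀ i, ContinuousOn (fun x : Fin n → ℝ => φ i (x i)) (Q a) := fun i =>
    (hO.cont i).comp (continuous_apply i).continuousOn fun x hx => hx i (mem_univ i)
  have hΨc : ContinuousOn Ψ (Q a) := continuousOn_finsetSum _ fun i _ => hcont i
  have hQcomp : IsCompact (Q r) := isCompact_univ_pi fun j => isCompact_Icc
  have hCcomp : IsCompact C := hC.compact
  have hIQ : IntegrableOn Ψ (Q r) := (hΨc.mono hQB).integrableOn_compact hQcomp
  have hIC : IntegrableOn Ψ C := (hΨc.mono hCB).integrableOn_compact hCcomp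
  have hCm : MeasurableSet C := hCcomp.measurableSet
  have hQm : MeasurableSet (Q r) := hQcomp.measurableSet
  have hCf : volume C ≠ ⊤ := hCcomp.measure_lt_top.ne
  have hQf : volume (Q r) ≠ ⊤ := hQcomp.measure_lt_top.ne
  have h1 : ∫ x in Q r, Ψ x = (∏ j, r j) * ∑ i, (∫ u in (0 : ℝ)..(r i), φ i u) / r i := by
    rw [hΨ, integral_finsetSum _ fun i _ =>
      ((hcont i).mono hQB).integrableOn_compact hQcomp, Finset.mul_sum]
    exact Finset.sum_congr rfl fun i _ => fubini r hr i (φ i)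
  have h2 : vol C * ∑ i, (∫ u in (0 : ℝ)..(r i), φ i u) / r i ≤ ∫ x in C, Ψ x := by
    rw [hΨ, integral_finsetSum _ fun i _ =>
      ((hcont i).mono hCB).integrableOn_compact hCcomp, Finset.mul_sum]
    exact Finset.sum_le_sum fun i _ => hav i
  have hconst : ∀ (s : Set (Fin n → ℝ)) (c : ℝ), ∫ _x in s, c = vol s * c := by
    intro s c
    rw [setIntegral_const, smul_eq_mul]
    rfl
  have s1 : (∫ x in Q r ∩ C, Ψ x) + ∫ x in Q r \ C, Ψ x = ∫ x in Q r, Ψ x :=
    integral_inter_add_sdiff hCm hIQ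
  have s2 : (∫ x in C ∩ Q r, Ψ x) + ∫ x in C \ Q r, Ψ x = ∫ x in C, Ψ x :=
    integral_inter_add_sdiff hQm hIC
  have s3 : vol (Q r \ C) * 1 ≤ ∫ x in Q r \ C, Ψ x := by
    rw [← hconst]
    refine setIntegral_mono_on (integrableOn_const ((measure_mono sdiff_subset).trans_lt hQf.lt_top).ne)
      (hIQ.mono_set sdiff_subset) (hQm.diff hCm) fun x hx => ?_
    by_contra hlt
    exact hx.2 ⟨fun i => ⟨(hx.1 i (mem_univ i)).1, (hx.1 i (mem_univ i)).2.trans (hra i)⟩,
      (not_le.1 hlt).le⟩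
  have s4 : ∫ x in C \ Q r, Ψ x ≤ vol (C \ Q r) * 1 := by
    rw [← hconst]
    refine setIntegral_mono_on (hIC.mono_set sdiff_subset)
      (integrableOn_const ((measure_mono sdiff_subset).trans_lt hCf.lt_top).ne) (hCm.diff hQm) fun x hx => hx.1.2
  have m1 : vol (Q r ∩ C) + vol (Q r \ C) = vol (Q r) := measureReal_inter_add_sdiff hCm hQf
  have m2 : vol (C ∩ Q r) + vol (C \ Q r) = vol C := measureReal_inter_add_sdiff hQm hCf
  rw [inter_comm C (Q r)] at s2 m2
  have hge : (∫ x in C, Ψ x) + (vol (Q r) - vol C) ≤ ∫ x in Q r, Ψ x := by linarith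
  -- strictness
  have hstrict : ∫ x in C, Ψ x < vol C := by
    set H : Set (Fin n → ℝ) := (1 / 2 : ℝ) • C with hH
    have hHcomp : IsCompact H := hCcomp.smul _
    have hHm : MeasurableSet H := hHcomp.measurableSet
    have hHf : volume H ≠ ⊤ := hHcomp.measure_lt_top.ne
    have hhalf : ∀ x ∈ C, (1 / 2 : ℝ) • x ∈ C ∧ Ψ ((1 / 2 : ℝ) • x) ≤ 1 / 2 := by
      intro x hx
      have hle : Ψ ((1 / 2 : ℝ) • x) ≤ 1 / 2 := by
        have h5 : ∀ i, φ i (((1 / 2 : ℝ) • x) i) ≤ (1 / 2) * φ i (x i) := by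
          intro i
          have h0 : (0 : ℝ) ∈ Icc 0 (a i) := ⟨le_rfl, (hO.pos i).le⟩
          have h0' : x i ∈ Icc 0 (a i) := hx.1 i
          have h6 := (hO.convex i).2 h0 h0' (by norm_num : (0 : ℝ) ≤ 1 / 2)
            (by norm_num : (0 : ℝ) ≤ 1 / 2) (by norm_num)
          rw [hO.zero i, smul_zero, zero_add, zero_add, smul_eq_mul, smul_eq_mul] at h6
          exact h6
        calc Ψ ((1 / 2 : ℝ) • x) ≤ ∑ i, (1 / 2) * φ i (x i) := Finset.sum_le_sum fun i _ => h5 i
          _ = (1 / 2) * ∑ i, φ i (x i) := by rw [Finset.mul_sum]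
          _ ≤ (1 / 2) * 1 := mul_le_mul_of_nonneg_left hx.2 (by norm_num)
          _ = 1 / 2 := by norm_num
      refine ⟨⟨fun i => ?_, hle.trans (by norm_num)⟩, hle⟩
      have h7 := hx.1 i
      have h8 : ((1 / 2 : ℝ) • x) i = (1 / 2) * x i := rfl
      rw [h8]
      constructor
      · linarith [h7.1]
      · linarith [h7.1, h7.2]
    have hHC : H ⊆ C := by
      rintro _ ⟨x, hx, rfl⟩
      exact (hhalf x hx).1
    have hHpos : 0 < vol H := by
      have h9 : volume H = ENNReal.ofReal |(1 / 2 : ℝ) ^ Module.finrank ℝ (Fin n → ℝ)| *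
          volume C := Measure.addHaar_smul _ _ _
      have h10 : vol H = |(1 / 2 : ℝ) ^ Module.finrank ℝ (Fin n → ℝ)| * vol C := by
        rw [vol, h9, ENNReal.toReal_mul, ENNReal.toReal_ofReal (abs_nonneg _)]
        rfl
      rw [h10]
      exact mul_pos (by positivity) hC.pos
    have t1 : (∫ x in C ∩ H, Ψ x) + ∫ x in C \ H, Ψ x = ∫ x in C, Ψ x :=
      integral_inter_add_sdiff hHm hIC
    have t2 : vol (C ∩ H) + vol (C \ H) = vol C := measureReal_inter_add_sdiff hHm hCf
    rw [inter_eq_right.2 hHC] at t1 t2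
    have t3 : ∫ x in H, Ψ x ≤ vol H * (1 / 2) := by
      rw [← hconst]
      refine setIntegral_mono_on (hIC.mono_set hHC) (integrableOn_const hHf) hHm ?_
      rintro _ ⟨x, hx, rfl⟩
      exact (hhalf x hx).2
    have t4 : ∫ x in C \ H, Ψ x ≤ vol (C \ H) * 1 := by
      rw [← hconst]
      exact setIntegral_mono_on (hIC.mono_set sdiff_subset)
        (integrableOn_const ((measure_mono sdiff_subset).trans_lt hCf.lt_top).ne) (hCm.diff hHm) fun x hx => hx.1.2
    linarith
  by_contra hcon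
  have hlt : vol C < vol (Q r) := by
    rw [vol_Q r hr]
    exact not_le.1 hcon
  rw [← vol_Q r hr] at h1
  have hCpos : 0 < vol C := hC.pos
  set S := ∑ i, (∫ u in (0 : ℝ)..(r i), φ i u) / r i with hS
  have hQpos : 0 < vol (Q r) := hCpos.trans hlt
  have e1 : vol C * ∫ x in Q r, Ψ x ≤ vol (Q r) * ∫ x in C, Ψ x := by
    rw [h1]
    calc vol C * (vol (Q r) * S) = vol (Q r) * (vol C * S) := by ring
      _ ≤ _ := mul_le_mul_of_nonneg_left h2 hQpos.le
  have e2 := mul_le_mul_of_nonneg_left hge hCpos.le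
  have e3 : 0 < (vol (Q r) - vol C) * (vol C - ∫ x in C, Ψ x) :=
    mul_pos (sub_pos.2 hlt) (sub_pos.2 hstrict)
  nlinarith

end Vale.P254.BATH
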