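import Mathlib

/-! P254: the isotropic constant and generalised Orlicz balls. -/

namespace Vale.P254

open MeasureTheory

/-- The volume of `K` as a real number. -/
noncomputable def vol {n : ℕ} (K : Set (Fin n → ℝ)) : ℝ := (volume K).toReal

/-- The centroid of `K`. -/
noncomputable def centroid {n : ℕ} (K : Set (Fin n → ℝ)) : Fin n → ℝ :=
  fun i => (vol K)⁻¹ * ∫ x in K, x i

/-- The covariance matrix of `K`. -/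
noncomputable def covMatrix {n : ℕ} (K : Set (Fin n → ℝ)) : Matrix (Fin n) (Fin n) ℝ :=
  fun i j => (vol K)⁻¹ * ∫ x in K, (x i - centroid K i) * (x j - centroid K j)

/-- The isotropic constant of `K`. -/
noncomputable def isoConst {n : ℕ} (K : Set (Fin n → ℝ)) : ℝ :=
  ((covMatrix K).det / vol K ^ 2) ^ (1 / (2 * (n : ℝ)))

/-- The convex hull of the origin and the standard basis vectors, an `n`-simplex. -/
def simplex (n : ℕ) : Set (Fin n → ℝ) :=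
  convexHull ℝ (insert 0 (Set.range fun i : Fin n => (Pi.single i (1 : ℝ) : Fin n → ℝ)))

/-- The data of a generalised Orlicz ball: for each coordinate a bound `a i > 0` and a continuous
convex function `φ i ≥ 0` on `[0, a i]` with `φ i 0 = 0`. -/
structure IsOrlicz {n : ℕ} (a : Fin n → ℝ) (φ : Fin n → ℝ → ℝ) : Prop where
  pos : ∀ i, 0 < a i
  zero : ∀ i, φ i 0 = 0
  nonneg : ∀ i, ∀ t ∈ Set.Icc 0 (a i), 0 ≤ φ i t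
  convex : ∀ i, ConvexOn ℝ (Set.Icc 0 (a i)) (φ i)
  cont : ∀ i, ContinuousOn (φ i) (Set.Icc 0 (a i))

/-- The generalised Orlicz ball: `|x i| ≤ a i` for all `i` and `∑ φ i |x i| ≤ 1`. -/
def ball {n : ℕ} (a : Fin n → ℝ) (φ : Fin n → ℝ → ℝ) : Set (Fin n → ℝ) :=
  {x | (∀ i, |x i| ≤ a i) ∧ ∑ i, φ i |x i| ≤ 1}

/-! ### module interface -/

/-- The positive part of the ball. -/
def posPart {n : ℕ} (a : Fin n → ℝ) (φ : Fin n → ℝ → ℝ) : Set (Fin n → ℝ) :=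
  {x | (∀ i, 0 ≤ x i ∧ x i ≤ a i) ∧ ∑ i, φ i (x i) ≤ 1}

/-- Convex corners. -/
structure IsCorner {n : ℕ} (C : Set (Fin n → ℝ)) : Prop where
  compact : IsCompact C
  convex : Convex ℝ C
  nonneg : ∀ x ∈ C, ∀ i, 0 ≤ x i
  down : ∀ x ∈ C, ∀ y : Fin n → ℝ, (∀ i, 0 ≤ y i) → (∀ i, y i ≤ x i) → y ∈ C
  pos : 0 < vol C

/-- COR. -/
def StmtCOR : Prop :=
  ∀ (n : ℕ) (a : Fin n → ℝ) (φ : Fin n → ℝ → ℝ), IsOrlicz a φ → IsCorner (posPart a φ)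

/-- SYM: the unconditional body with positive part `C`. -/
def StmtSYM : Prop :=
  ∀ (n : ℕ) (C : Set (Fin n → ℝ)), IsCorner C →
    vol {x : Fin n → ℝ | (fun i => |x i|) ∈ C} = 2 ^ n * vol C ∧
    covMatrix {x : Fin n → ℝ | (fun i => |x i|) ∈ C} =
      Matrix.diagonal (fun i => (∫ x in C, x i ^ 2) / vol C)

/-- FUB: integration along the fibres in direction `i`, which are intervals `[0, t]`. -/
def StmtFUB : Prop :=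
  ∀ (n : ℕ) (C : Set (Fin n → ℝ)), IsCorner C → ∀ (i : Fin n) (r : ℝ), 0 < r →
    (∀ x ∈ C, x i ≤ r) → ∀ g : ℝ → ℝ, ContinuousOn g (Set.Icc 0 r) →
    (∀ t ∈ Set.Icc 0 r, 0 ≤ ∫ s in (0 : ℝ)..t, g s) → 0 ≤ ∫ x in C, g (x i)

/-- CVX: `G(r) = (1/r) ∫_0^r φ` is convex and has a tangent at `r0` (take
`s = (φ r0 - G(r0)) / r0`). -/
def StmtCVX : Prop :=
  ∀ (a r0 : ℝ) (φ : ℝ → ℝ), 0 < r0 → r0 ≤ a → ConvexOn ℝ (Set.Icc 0 a) φ →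
    ContinuousOn φ (Set.Icc 0 a) → ∃ s : ℝ, ∀ r ∈ Set.Icc 0 a,
      0 ≤ ∫ t in (0 : ℝ)..r, (φ t - (∫ u in (0 : ℝ)..r0, φ u) / r0 - s * (2 * t - r0))

/-- JEN: from FUB and CVX (and FUB for `g t = a - 2 t`). -/
def StmtJEN : Prop :=
  ∀ (n : ℕ) (C : Set (Fin n → ℝ)), IsCorner C → ∀ (i : Fin n) (a : ℝ), 0 < a →
    (∀ x ∈ C, x i ≤ a) → ∀ φ : ℝ → ℝ, ConvexOn ℝ (Set.Icc 0 a) φ →
    ContinuousOn φ (Set.Icc 0 a) → ∀ r0 : ℝ, r0 = 2 * (∫ x in C, x i) / vol C →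
      0 < r0 ∧ r0 ≤ a ∧ vol C * ((∫ u in (0 : ℝ)..r0, φ u) / r0) ≤ ∫ x in C, φ (x i)

/-- BATH: the bathtub argument. With `C = posPart a φ`, `Q = ∏ [0, r i]`, `Psi = ∑ φ i (x i)`:
`∫_Q Psi = |Q| ∑ (∫_0^(r i) φ i)/(r i)`, `Psi ≤ 1` on `C`, `Psi > 1` on `Q \ C`, and
`∫_C Psi < |C|`. -/
def StmtBATH : Prop :=
  ∀ (n : ℕ) (a : Fin n → ℝ) (φ : Fin n → ℝ → ℝ), IsOrlicz a φ → IsCorner (posPart a φ) →
    ∀ r : Fin n → ℝ, (∀ i, 0 < r i) → (∀ i, r i ≤ a i) →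
    (∀ i, vol (posPart a φ) * ((∫ u in (0 : ℝ)..(r i), φ i u) / r i) ≤
      ∫ x in posPart a φ, φ i (x i)) → ∏ i, r i ≤ vol (posPart a φ)

/-- BM: Brunn-Minkowski for `C` and `C ∩ {x i ≥ t}`, from Prekopa-Leindler
(`Vale.Agent.P074.PL.plp_pi` or `prekopa_leindler` in Vale/Agent/P074/PL.lean). -/
def StmtBM : Prop :=
  ∀ (n : ℕ) (C : Set (Fin n → ℝ)), 1 ≤ n → IsCorner C → ∀ (i : Fin n) (t μ : ℝ), 0 ≤ t →
    0 ≤ μ → μ ≤ 1 → 0 < vol (C ∩ {x | t ≤ x i}) →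
    (1 - μ) * vol C ^ (1 / (n : ℝ)) + μ * vol (C ∩ {x | t ≤ x i}) ^ (1 / (n : ℝ)) ≤
      vol (C ∩ {x | μ * t ≤ x i}) ^ (1 / (n : ℝ))

/-- LAY: layer cake. -/
def StmtLAY : Prop :=
  ∀ (n : ℕ) (C : Set (Fin n → ℝ)), IsCorner C → ∀ (i : Fin n) (M : ℝ), 0 < M →
    (∀ x ∈ C, x i ≤ M) →
    (∫ x in C, x i) = (∫ t in (0 : ℝ)..M, vol (C ∩ {x | t ≤ x i})) ∧
    (∫ x in C, x i ^ 2) = ∫ t in (0 : ℝ)..M, 2 * t * vol (C ∩ {x | t ≤ x i})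

/-- CROSS: one-dimensional comparison with `T 0 * (1 - t / τ)^n`, `τ = (n + 1) ∫ T / T 0`. -/
def StmtCROSS : Prop :=
  ∀ (n : ℕ) (M : ℝ) (T : ℝ → ℝ), 1 ≤ n → 0 < M → AntitoneOn T (Set.Icc 0 M) →
    (∀ t ∈ Set.Icc 0 M, 0 ≤ T t) → 0 < T 0 →
    (∀ t ∈ Set.Icc 0 M, 0 < T t → ∀ μ ∈ Set.Icc (0 : ℝ) 1,
      (1 - μ) * T 0 ^ (1 / (n : ℝ)) + μ * T t ^ (1 / (n : ℝ)) ≤ T (μ * t) ^ (1 / (n : ℝ))) →
    ((n : ℝ) + 2) * T 0 * (∫ t in (0 : ℝ)..M, 2 * t * T t) ≤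
      2 * ((n : ℝ) + 1) * (∫ t in (0 : ℝ)..M, T t) ^ 2

/-- MOM: from BM, LAY, CROSS. -/
def StmtMOM : Prop :=
  ∀ (n : ℕ) (C : Set (Fin n → ℝ)), 1 ≤ n → IsCorner C → ∀ i : Fin n,
    ((n : ℝ) + 2) * vol C * (∫ x in C, x i ^ 2) ≤ 2 * ((n : ℝ) + 1) * (∫ x in C, x i) ^ 2

/-- NUM. -/
def StmtNUM : Prop := ∀ n : ℕ, 2 ≤ n → (n + 1) ^ (2 * n + 1) < 8 ^ n * n.factorial ^ 2

/-- SIMP: the value for the simplex. -/
def StmtSIMP : Prop :=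
  ∀ n : ℕ, 1 ≤ n → (covMatrix (simplex n)).det / vol (simplex n) ^ 2 =
    (n.factorial : ℝ) ^ 2 / (((n : ℝ) + 1) ^ (n + 1) * ((n : ℝ) + 2) ^ n)

end Vale.P254
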