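import Mathlib
import Vale.Agent.P254.Defs
import Vale.Agent.P074.PL

open MeasureTheory Set
open scoped ENNReal

namespace Vale.P254.BM

/-- Prékopa–Leindler for sets -/
theorem pl_sets {n : ℕ} {A B M : Set (Fin n → ℝ)} (hA : MeasurableSet A) (hB : MeasurableSet B)
    (hM : MeasurableSet M) {lam : ℝ} (h0 : 0 < lam) (h1 : lam < 1)
    (h : ∀ x ∈ A, ∀ y ∈ B, (1 - lam) • x + lam • y ∈ M) :
    volume A ^ (1 - lam) * volume B ^ lam ≤ volume M := by
  have hpl := Vale.Agent.P074.PL.plp_pi n lam h0 h1 (A.indicator 1) (B.indicator 1)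
    (M.indicator 1) (measurable_one.indicator hA) (measurable_one.indicator hB)
    (measurable_one.indicator hM) (by
      intro x y
      by_cases hx : x ∈ A
      · by_cases hy : y ∈ B
        · rw [indicator_of_mem hx, indicator_of_mem hy, indicator_of_mem (h x hx y hy)]
          simp
        · rw [indicator_of_notMem hy, ENNReal.zero_rpow_of_pos h0, mul_zero]
          exact bot_le
      · rw [indicator_of_notMem hx, ENNReal.zero_rpow_of_pos (by linarith), zero_mul]
        exact bot_le)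
  rw [lintegral_indicator_one hA, lintegral_indicator_one hB, lintegral_indicator_one hM] at hpl
  exact hpl

theorem vol_scale {n : ℕ} {S : Set (Fin n → ℝ)} (hS : volume S ≠ ∞) {a : ℝ} (ha : 0 < a) :
    volume ((fun x : Fin n → ℝ => a • x) ⁻¹' S) = ENNReal.ofReal ((a ^ n)⁻¹ * vol S) := by
  have h1 := Measure.addHaar_preimage_smul (volume : Measure (Fin n → ℝ)) ha.ne' S
  rw [Module.finrank_fin_fun, abs_of_pos (by positivity)] at h1
  rw [h1, ENNReal.ofReal_mul (by positivity), vol, ENNReal.ofReal_toReal hS]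

theorem bm {n : ℕ} (hn : 1 ≤ n) {C D E : Set (Fin n → ℝ)} (hC : MeasurableSet C)
    (hD : MeasurableSet D) (hE : MeasurableSet E) (hCt : volume C ≠ ∞) (hDt : volume D ≠ ∞)
    (hEt : volume E ≠ ∞) (hC0 : 0 < vol C) (hD0 : 0 < vol D) {μ : ℝ} (h0 : 0 < μ) (h1 : μ < 1)
    (h : ∀ x ∈ C, ∀ y ∈ D, (1 - μ) • x + μ • y ∈ E) :
    (1 - μ) * vol C ^ (1 / (n : ℝ)) + μ * vol D ^ (1 / (n : ℝ)) ≤ vol E ^ (1 / (n : ℝ)) := by
  have hn0 : n ≠ 0 := by omega
  set a := vol C ^ (1 / (n : ℝ)) with ha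
  set b := vol D ^ (1 / (n : ℝ)) with hb
  have ha0 : 0 < a := Real.rpow_pos_of_pos hC0 _
  have hb0 : 0 < b := Real.rpow_pos_of_pos hD0 _
  have han : a ^ n = vol C := by
    rw [ha, one_div]; exact Real.rpow_inv_natCast_pow hC0.le hn0
  have hbn : b ^ n = vol D := by
    rw [hb, one_div]; exact Real.rpow_inv_natCast_pow hD0.le hn0
  set s := (1 - μ) * a + μ * b with hs
  have h1' : 0 < 1 - μ := by linarith
  have hs0 : 0 < s := by positivity
  have hlam0 : 0 < μ * b / s := by positivity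
  have hlam1 : μ * b / s < 1 := by
    rw [div_lt_one hs0, hs]
    have : 0 < (1 - μ) * a := by positivity
    linarith
  have hsm : ∀ c : ℝ, Measurable (fun x : Fin n → ℝ => c • x) := fun c => by fun_prop
  have key := pl_sets (A := (fun x : Fin n → ℝ => a • x) ⁻¹' C)
    (B := (fun x : Fin n → ℝ => b • x) ⁻¹' D) (M := (fun x : Fin n → ℝ => s • x) ⁻¹' E)
    (hsm a hC) (hsm b hD) (hsm s hE) hlam0 hlam1 (by
      intro x hx y hy
      have h2 := h _ hx _ hy
      show s • ((1 - μ * b / s) • x + (μ * b / s) • y) ∈ E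
      have e : s • ((1 - μ * b / s) • x + (μ * b / s) • y) = (1 - μ) • a • x + μ • b • y := by
        rw [smul_add, smul_smul, smul_smul, smul_smul, smul_smul]
        have e1 : s * (1 - μ * b / s) = (1 - μ) * a := by
          field_simp
          rw [hs]; ring
        have e2 : s * (μ * b / s) = μ * b := by field_simp
        rw [e1, e2]
      rw [e]
      exact h2)
  rw [vol_scale hCt ha0, vol_scale hDt hb0, vol_scale hEt hs0, han, hbn,
    inv_mul_cancel₀ hC0.ne', inv_mul_cancel₀ hD0.ne', ENNReal.ofReal_one, ENNReal.one_rpow,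
    ENNReal.one_rpow, one_mul, ENNReal.one_le_ofReal, inv_mul_eq_div,
    one_le_div (by positivity)] at key
  calc s = (s ^ n) ^ (1 / (n : ℝ)) := by
        rw [one_div, Real.pow_rpow_inv_natCast hs0.le hn0]
    _ ≤ vol E ^ (1 / (n : ℝ)) := Real.rpow_le_rpow (by positivity) key (by positivity)

theorem thm : StmtBM := by
  intro n C hn hC i t μ ht h0 h1 hD
  have hcl : ∀ c : ℝ, IsClosed {x : Fin n → ℝ | c ≤ x i} := fun c =>
    isClosed_le continuous_const (continuous_apply i)
  have hCm : MeasurableSet C := hC.compact.isClosed.measurableSet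
  have hCt : volume C ≠ ∞ := hC.compact.measure_lt_top.ne
  have hm : ∀ c : ℝ, MeasurableSet (C ∩ {x : Fin n → ℝ | c ≤ x i}) := fun c =>
    hCm.inter (hcl c).measurableSet
  have hmt : ∀ c : ℝ, volume (C ∩ {x : Fin n → ℝ | c ≤ x i}) ≠ ∞ := fun c =>
    ((measure_mono inter_subset_left).trans_lt hC.compact.measure_lt_top).ne
  rcases eq_or_lt_of_le h0 with rfl | h0
  · have e : C ∩ {x : Fin n → ℝ | (0 : ℝ) * t ≤ x i} = C := by
      apply inter_eq_left.2
      intro x hx
      show (0 : ℝ) * t ≤ x i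
      rw [zero_mul]
      exact hC.nonneg x hx i
    rw [e]
    simp
  rcases eq_or_lt_of_le h1 with rfl | h1
  · simp
  apply bm hn hCm (hm t) (hm (μ * t)) hCt (hmt t) (hmt _) hC.pos hD h0 h1
  rintro x hx y ⟨hy, hyt⟩
  refine ⟨hC.convex hx hy (by linarith) h0.le (by ring), ?_⟩
  show μ * t ≤ ((1 - μ) • x + μ • y) i
  have hx0 := hC.nonneg x hx i
  have hyt' : t ≤ y i := hyt
  simp only [Pi.add_apply, Pi.smul_apply, smul_eq_mul]
  have h2 : 0 ≤ (1 - μ) * x i := mul_nonneg (by linarith) hx0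
  have h3 : μ * t ≤ μ * y i := mul_le_mul_of_nonneg_left hyt' h0.le
  linarith

end Vale.P254.BM
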