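import Vale.Agent.P254.Defs

namespace Vale.P254.COR

open MeasureTheory Set

theorem scale {a : ℝ} {φ : ℝ → ℝ} (hc : ConvexOn ℝ (Icc 0 a) φ) (h0 : φ 0 = 0) (ha : 0 < a)
    {t c : ℝ} (ht : t ∈ Icc 0 a) (hc0 : 0 ≤ c) (hc1 : c ≤ 1) : φ (c * t) ≤ c * φ t := by
  have h := hc.2 (⟨le_rfl, ha.le⟩ : (0 : ℝ) ∈ Icc 0 a) ht (sub_nonneg.2 hc1) hc0 (by ring)
  simpa [h0] using h

theorem mono {a : ℝ} {φ : ℝ → ℝ} (hc : ConvexOn ℝ (Icc 0 a) φ) (h0 : φ 0 = 0) (ha : 0 < a)
    (hn : ∀ t ∈ Icc 0 a, 0 ≤ φ t) {s t : ℝ} (hs : 0 ≤ s) (hst : s ≤ t) (ht : t ≤ a) :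
    φ s ≤ φ t := by
  rcases hst.eq_or_lt with rfl | hlt
  · exact le_rfl
  have htpos : 0 < t := lt_of_le_of_lt hs hlt
  have h1 := scale hc h0 ha (t := t) (c := s / t) ⟨htpos.le, ht⟩ (by positivity)
    ((div_le_one htpos).2 hst)
  rw [div_mul_cancel₀ _ htpos.ne'] at h1
  refine h1.trans ?_
  have h2 := hn t ⟨htpos.le, ht⟩
  have h3 : s / t ≤ 1 := (div_le_one htpos).2 hst
  nlinarith

theorem thm : StmtCOR := by
  intro n a φ h
  have hset : posPart a φ = Icc (0 : Fin n → ℝ) a ∩ (fun x => ∑ i, φ i (x i)) ⁻¹' (Iic 1) := by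
    ext x
    simp only [posPart, mem_inter_iff, mem_Icc, mem_preimage, mem_Iic, Pi.le_def, Pi.zero_apply]
    constructor
    · rintro ⟨h1, h2⟩
      exact ⟨⟨fun i => (h1 i).1, fun i => (h1 i).2⟩, h2⟩
    · rintro ⟨⟨h1, h2⟩, h3⟩
      exact ⟨fun i => ⟨h1 i, h2 i⟩, h3⟩
  have hcont : ContinuousOn (fun x : Fin n → ℝ => ∑ i, φ i (x i)) (Icc (0 : Fin n → ℝ) a) := by
    refine continuousOn_finsetSum _ fun i _ => ?_
    refine (h.cont i).comp (continuous_apply i).continuousOn ?_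
    intro x hx
    exact ⟨hx.1 i, hx.2 i⟩
  have hcl : IsClosed (posPart a φ) := by
    rw [hset]
    exact hcont.preimage_isClosed_of_isClosed isClosed_Icc isClosed_Iic
  have hcomp : IsCompact (posPart a φ) := by
    exact (isCompact_Icc (a := (0 : Fin n → ℝ)) (b := a)).of_isClosed_subset hcl
      (by rw [hset]; exact inter_subset_left)
  refine ⟨hcomp, ?_, ?_, ?_, ?_⟩
  · intro x hx y hy s t hs ht hst
    refine ⟨fun i => ?_, ?_⟩
    · have h1 := hx.1 i
      have h2 := hy.1 i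
      simp only [Pi.add_apply, Pi.smul_apply, smul_eq_mul]
      constructor
      · have := mul_nonneg hs h1.1
        have := mul_nonneg ht h2.1
        linarith
      · have e1 := mul_le_mul_of_nonneg_left h1.2 hs
        have e2 := mul_le_mul_of_nonneg_left h2.2 ht
        have e3 : s * a i + t * a i = a i := by rw [← add_mul, hst, one_mul]
        linarith
    · calc ∑ i, φ i ((s • x + t • y) i) ≤ ∑ i, (s * φ i (x i) + t * φ i (y i)) := by
            refine Finset.sum_le_sum fun i _ => ?_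
            have := (h.convex i).2 (⟨(hx.1 i).1, (hx.1 i).2⟩ : x i ∈ Icc 0 (a i))
              (⟨(hy.1 i).1, (hy.1 i).2⟩ : y i ∈ Icc 0 (a i)) hs ht hst
            simpa using this
        _ = s * ∑ i, φ i (x i) + t * ∑ i, φ i (y i) := by
            rw [Finset.sum_add_distrib, Finset.mul_sum, Finset.mul_sum]
        _ ≤ s * 1 + t * 1 := add_le_add (mul_le_mul_of_nonneg_left hx.2 hs)
            (mul_le_mul_of_nonneg_left hy.2 ht)
        _ = 1 := by rw [mul_one, mul_one, hst]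
  · intro x hx i
    exact (hx.1 i).1
  · intro x hx y hy0 hyx
    refine ⟨fun i => ⟨hy0 i, (hyx i).trans (hx.1 i).2⟩, ?_⟩
    refine (Finset.sum_le_sum fun i _ => ?_).trans hx.2
    exact mono (h.convex i) (h.zero i) (h.pos i) (h.nonneg i) (hy0 i) (hyx i) (hx.1 i).2
  · set A : ℝ := ∑ i, φ i (a i) with hA
    have hA0 : 0 ≤ A := Finset.sum_nonneg fun i _ => h.nonneg i _ ⟨(h.pos i).le, le_rfl⟩
    set ε : ℝ := 1 / (1 + A) with hε
    have hε0 : 0 < ε := by positivity
    have hε1 : ε ≤ 1 := by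
      rw [hε, div_le_one (by linarith)]
      linarith
    have hsub : Icc (0 : Fin n → ℝ) (fun i => ε * a i) ⊆ posPart a φ := by
      intro x hx
      have hx1 : ∀ i, 0 ≤ x i := fun i => hx.1 i
      have hx2 : ∀ i, x i ≤ ε * a i := fun i => hx.2 i
      have hle : ∀ i, ε * a i ≤ a i := fun i => by
        have := h.pos i
        nlinarith
      refine ⟨fun i => ⟨hx1 i, (hx2 i).trans (hle i)⟩, ?_⟩
      calc ∑ i, φ i (x i) ≤ ∑ i, ε * φ i (a i) := by
            refine Finset.sum_le_sum fun i _ => ?_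
            refine (mono (h.convex i) (h.zero i) (h.pos i) (h.nonneg i) (hx1 i) (hx2 i)
              (hle i)).trans ?_
            exact scale (h.convex i) (h.zero i) (h.pos i) ⟨(h.pos i).le, le_rfl⟩ hε0.le hε1
        _ = ε * A := by rw [hA, Finset.mul_sum]
        _ ≤ 1 := by
            rw [hε, div_mul_eq_mul_div, one_mul, div_le_one (by linarith)]
            linarith
    have hpos : 0 < volume (Icc (0 : Fin n → ℝ) (fun i => ε * a i)) := by
      rw [Real.volume_Icc_pi]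
      rw [pos_iff_ne_zero, Finset.prod_ne_zero_iff]
      intro i _
      rw [Pi.zero_apply, sub_zero, ne_eq, ENNReal.ofReal_eq_zero, not_le]
      exact mul_pos hε0 (h.pos i)
    exact ENNReal.toReal_pos (lt_of_lt_of_le hpos (measure_mono hsub)).ne'
      hcomp.measure_lt_top.ne

end Vale.P254.COR
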