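import Vale.Agent.P254.Defs

/-! P254, module CROSS. -/

namespace Vale.P254.CROSS

open MeasureTheory Set

theorem ftc (n : ℕ) (T0 τ s : ℝ) (hτ : 0 < τ) :
    ∫ t in (0 : ℝ)..τ, (t - s) * (T0 * (1 - t / τ) ^ n) =
      T0 * (τ ^ 2 / (((n : ℝ) + 1) * ((n : ℝ) + 2)) - s * τ / ((n : ℝ) + 1)) := by
  have hn1 : ((n : ℝ) + 1) ≠ 0 := by positivity
  have hn2 : ((n : ℝ) + 2) ≠ 0 := by positivity
  have hd : ∀ t ∈ uIcc 0 τ, HasDerivAt (fun t : ℝ => T0 * (-(τ ^ 2) *
      ((1 - t / τ) ^ (n + 1) / ((n : ℝ) + 1) - (1 - t / τ) ^ (n + 2) / ((n : ℝ) + 2)) +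
        s * τ * ((1 - t / τ) ^ (n + 1) / ((n : ℝ) + 1))))
      ((t - s) * (T0 * (1 - t / τ) ^ n)) t := by
    intro t _
    have hu : HasDerivAt (fun t : ℝ => 1 - t / τ) (-(1 / τ)) t := by
      have := ((hasDerivAt_id t).div_const τ).const_sub 1
      simpa using this
    have h1 : HasDerivAt (fun t : ℝ => (1 - t / τ) ^ (n + 1) / ((n : ℝ) + 1))
        ((1 - t / τ) ^ n * (-(1 / τ))) t := by
      have h2 := (hu.pow (n + 1)).div_const ((n : ℝ) + 1)
      have e : ((n + 1 : ℕ) : ℝ) * (1 - t / τ) ^ (n + 1 - 1) * (-(1 / τ)) / ((n : ℝ) + 1) =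
          (1 - t / τ) ^ n * (-(1 / τ)) := by
        rw [Nat.add_sub_cancel]
        push_cast
        field_simp
      rw [← e]
      exact h2
    have h3 : HasDerivAt (fun t : ℝ => (1 - t / τ) ^ (n + 2) / ((n : ℝ) + 2))
        ((1 - t / τ) ^ (n + 1) * (-(1 / τ))) t := by
      have h2 := (hu.pow (n + 2)).div_const ((n : ℝ) + 2)
      have e : ((n + 2 : ℕ) : ℝ) * (1 - t / τ) ^ (n + 2 - 1) * (-(1 / τ)) / ((n : ℝ) + 2) =
          (1 - t / τ) ^ (n + 1) * (-(1 / τ)) := by
        rw [show n + 2 - 1 = n + 1 by omega]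
        push_cast
        field_simp
      rw [← e]
      exact h2
    have h4 := (((h1.sub h3).const_mul (-(τ ^ 2))).add (h1.const_mul (s * τ))).const_mul T0
    have e : T0 * (-(τ ^ 2) * ((1 - t / τ) ^ n * (-(1 / τ)) - (1 - t / τ) ^ (n + 1) * (-(1 / τ))) +
        s * τ * ((1 - t / τ) ^ n * (-(1 / τ)))) = (t - s) * (T0 * (1 - t / τ) ^ n) := by
      rw [pow_succ (1 - t / τ) n]
      generalize (1 - t / τ) ^ n = P
      field_simp
      ring
    rw [← e]
    exact h4
  rw [intervalIntegral.integral_eq_sub_of_hasDerivAt hd]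
  · have e1 : (1 : ℝ) - τ / τ = 0 := by
      rw [div_self hτ.ne', sub_self]
    have e2 : (1 : ℝ) - 0 / τ = 1 := by
      rw [zero_div, sub_zero]
    simp only [e1, e2, one_pow, ne_eq, Nat.add_eq_zero_iff, one_ne_zero, and_false,
      not_false_eq_true, zero_pow, OfNat.ofNat_ne_zero]
    field_simp
    ring
  · apply Continuous.intervalIntegrable
    fun_prop

theorem thm : StmtCROSS := by
  intro n M T hn hM hT hT0 hpos hch
  have hn' : n ≠ 0 := by omega
  have hTi : IntervalIntegrable T volume 0 M := by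
    apply AntitoneOn.intervalIntegrable
    rwa [uIcc_of_le hM.le]
  have htTi : IntervalIntegrable (fun t => t * T t) volume 0 M :=
    hTi.continuousOn_mul continuousOn_id
  have hI0 : 0 ≤ ∫ t in (0 : ℝ)..M, T t := intervalIntegral.integral_nonneg hM.le hT0
  have e2 : (∫ t in (0 : ℝ)..M, 2 * t * T t) = 2 * ∫ t in (0 : ℝ)..M, t * T t := by
    rw [← intervalIntegral.integral_const_mul]
    apply intervalIntegral.integral_congr
    intro t _
    ring
  rw [e2]
  rcases hI0.eq_or_lt with hI | hI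
  · have h1 : ∫ t in (0 : ℝ)..M, t * T t ≤ ∫ t in (0 : ℝ)..M, M * T t := by
      apply intervalIntegral.integral_mono_on hM.le htTi (hTi.const_mul M)
      intro t ht
      exact mul_le_mul_of_nonneg_right ht.2 (hT0 t ht)
    rw [intervalIntegral.integral_const_mul, ← hI, mul_zero] at h1
    rw [← hI]
    have h2 : 0 ≤ ((n : ℝ) + 2) * T 0 := by positivity
    nlinarith
  set I := ∫ t in (0 : ℝ)..M, T t with hIdef
  obtain ⟨τ, hτ⟩ : ∃ τ : ℝ, τ = ((n : ℝ) + 1) * I / T 0 := ⟨_, rfl⟩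
  have hτ0 : 0 < τ := by
    rw [hτ]
    positivity
  set h : ℝ → ℝ := fun t => T 0 * (max 0 (1 - t / τ)) ^ n with hh
  have hhc : Continuous h := by
    rw [hh]
    fun_prop
  have hh0 : ∀ t, 0 ≤ h t := fun t => by
    rw [hh]
    positivity
  set q : ℝ → ℝ := fun t => T t ^ (1 / (n : ℝ)) with hq
  have hqn : ∀ t ∈ Icc 0 M, q t ^ n = T t := by
    intro t ht
    rw [hq]
    show (T t ^ (1 / (n : ℝ))) ^ n = T t
    rw [one_div]
    exact Real.rpow_inv_natCast_pow (hT0 t ht) hn'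
  have hq0 : ∀ t ∈ Icc 0 M, 0 ≤ q t := fun t ht => Real.rpow_nonneg (hT0 t ht) _
  have h0M : (0 : ℝ) ∈ Icc 0 M := ⟨le_rfl, hM.le⟩
  have hlow : ∀ t ∈ Icc 0 M, q 0 * (1 - t / τ) ≤ q t → h t ≤ T t := by
    intro t ht hqt
    rcases le_or_gt (1 - t / τ) 0 with hu | hu
    · rw [hh]
      show T 0 * (max 0 (1 - t / τ)) ^ n ≤ T t
      rw [max_eq_left hu, zero_pow hn', mul_zero]
      exact hT0 t ht
    · rw [hh]
      show T 0 * (max 0 (1 - t / τ)) ^ n ≤ T t
      rw [max_eq_right hu.le, ← hqn 0 h0M, ← mul_pow, ← hqn t ht]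
      exact pow_le_pow_left₀ (mul_nonneg (hq0 0 h0M) hu.le) hqt n
  have hup : ∀ t ∈ Icc 0 M, h t < T t → q 0 * (1 - t / τ) ≤ q t := by
    intro t ht htT
    by_contra hcon
    push Not at hcon
    have h1 : 0 < q 0 * (1 - t / τ) := lt_of_le_of_lt (hq0 t ht) hcon
    have hu : 0 < 1 - t / τ := by
      by_contra hu
      push Not at hu
      have := mul_nonpos_of_nonneg_of_nonpos (hq0 0 h0M) hu
      linarith
    have h2 : q t ^ n ≤ (q 0 * (1 - t / τ)) ^ n := pow_le_pow_left₀ (hq0 t ht) hcon.le n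
    rw [hqn t ht, mul_pow, hqn 0 h0M] at h2
    have h3 : h t = T 0 * (1 - t / τ) ^ n := by
      rw [hh]
      show T 0 * (max 0 (1 - t / τ)) ^ n = _
      rw [max_eq_right hu.le]
    rw [h3] at htT
    linarith
  have hcross : ∀ a ∈ Icc 0 M, h a < T a → ∀ t, 0 ≤ t → t < a → h t ≤ T t := by
    intro a ha haT t ht hta
    have ha0 : 0 < a := lt_of_le_of_lt ht hta
    have htM : t ∈ Icc 0 M := ⟨ht, hta.le.trans ha.2⟩
    apply hlow t htM
    have h1 := hup a ha haT
    have h2 := hch a ha (lt_of_le_of_lt (hh0 a) haT) (t / a)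
      ⟨by positivity, (div_le_one ha0).2 hta.le⟩
    rw [div_mul_cancel₀ _ ha0.ne'] at h2
    have h3 : (1 - t / a) * q 0 + t / a * q a ≤ q t := h2
    have h4 : t / a * (q 0 * (1 - a / τ)) ≤ t / a * q a :=
      mul_le_mul_of_nonneg_left h1 (by positivity)
    have h5 : (1 - t / a) * q 0 + t / a * (q 0 * (1 - a / τ)) = q 0 * (1 - t / τ) := by
      field_simp
      ring
    linarith
  set A : Set ℝ := {t | t ∈ Icc 0 M ∧ h t < T t} with hA
  obtain ⟨s, hs⟩ : ∃ s : ℝ, s = sSup A := ⟨_, rfl⟩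
  have hAb : BddAbove A := ⟨M, fun t ht => ht.1.2⟩
  have hsM : s ≤ M := by
    rw [hs]
    exact Real.sSup_le (fun t ht => ht.1.2) hM.le
  have hpt : ∀ t ∈ Icc 0 M, 0 ≤ (t - s) * (h t - T t) := by
    intro t ht
    rcases lt_trichotomy t s with hlt | heq | hgt
    · have hne : A.Nonempty := by
        by_contra hne
        rw [not_nonempty_iff_eq_empty] at hne
        rw [hne, Real.sSup_empty] at hs
        have := ht.1
        linarith
      rw [hs] at hlt
      obtain ⟨a, ha, hta⟩ := exists_lt_of_lt_csSup hne hlt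
      have := hcross a ha.1 ha.2 t ht.1 hta
      rw [← hs] at hlt
      exact mul_nonneg_of_nonpos_of_nonpos (by linarith) (by linarith)
    · rw [heq, sub_self, zero_mul]
    · have h1 : T t ≤ h t := by
        by_contra hcon
        push Not at hcon
        have := le_csSup hAb (show t ∈ A from ⟨ht, hcon⟩)
        rw [← hs] at this
        linarith
      exact mul_nonneg (by linarith) (by linarith)
  have hi1 : ∀ x y : ℝ, IntervalIntegrable (fun t => (t - s) * h t) volume x y := fun x y =>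
    ((continuous_id.sub continuous_const).mul hhc).intervalIntegrable x y
  have e3 : ∫ t in (0 : ℝ)..M, (t - s) * (h t - T t) =
      ((∫ t in (0 : ℝ)..M, (t - s) * h t) - ∫ t in (0 : ℝ)..M, t * T t) +
        ∫ t in (0 : ℝ)..M, s * T t := by
    rw [← intervalIntegral.integral_sub (hi1 0 M) htTi,
      ← intervalIntegral.integral_add ((hi1 0 M).sub htTi) (hTi.const_mul s)]
    apply intervalIntegral.integral_congr
    intro t _
    ring
  have h3 : 0 ≤ ∫ t in (0 : ℝ)..M, (t - s) * (h t - T t) :=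
    intervalIntegral.integral_nonneg hM.le hpt
  rw [e3, intervalIntegral.integral_const_mul, ← hIdef] at h3
  have h4 : ∫ t in τ..M, (t - s) * h t ≤ 0 := by
    rcases le_or_gt τ M with hc | hc
    · have h5 : ∫ t in τ..M, (t - s) * h t = ∫ t in τ..M, (0 : ℝ) := by
        apply intervalIntegral.integral_congr
        intro t ht
        rw [uIcc_of_le hc] at ht
        have h6 : 1 - t / τ ≤ 0 := by
          have := (one_le_div hτ0).2 ht.1
          linarith
        show (t - s) * (T 0 * (max 0 (1 - t / τ)) ^ n) = 0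
        rw [max_eq_left h6, zero_pow hn', mul_zero, mul_zero]
      rw [h5, intervalIntegral.integral_zero]
    · rw [intervalIntegral.integral_symm]
      have h7 : 0 ≤ ∫ t in M..τ, (t - s) * h t := by
        apply intervalIntegral.integral_nonneg hc.le
        intro t ht
        exact mul_nonneg (by linarith [ht.1]) (hh0 t)
      linarith
  have h5 := intervalIntegral.integral_add_adjacent_intervals (hi1 0 τ) (hi1 τ M)
  have h6 : ∫ t in (0 : ℝ)..τ, (t - s) * h t = ∫ t in (0 : ℝ)..τ, (t - s) * (T 0 * (1 - t / τ) ^ n) := by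
    apply intervalIntegral.integral_congr
    intro t ht
    rw [uIcc_of_le hτ0.le] at ht
    have h7 : 0 ≤ 1 - t / τ := by
      have := (div_le_one hτ0).2 ht.2
      linarith
    show (t - s) * (T 0 * (max 0 (1 - t / τ)) ^ n) = (t - s) * (T 0 * (1 - t / τ) ^ n)
    rw [max_eq_right h7]
  rw [ftc n (T 0) τ s hτ0] at h6
  have h7 : T 0 * (s * τ / ((n : ℝ) + 1)) = s * I := by
    rw [hτ]
    field_simp
  have h8 : ((n : ℝ) + 2) * T 0 * (2 * (T 0 * (τ ^ 2 / (((n : ℝ) + 1) * ((n : ℝ) + 2))))) =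
      2 * ((n : ℝ) + 1) * I ^ 2 := by
    rw [hτ]
    field_simp
  have h9 : ∫ t in (0 : ℝ)..M, t * T t ≤ T 0 * (τ ^ 2 / (((n : ℝ) + 1) * ((n : ℝ) + 2))) := by
    rw [mul_sub] at h6
    linarith
  calc ((n : ℝ) + 2) * T 0 * (2 * ∫ t in (0 : ℝ)..M, t * T t)
      ≤ ((n : ℝ) + 2) * T 0 * (2 * (T 0 * (τ ^ 2 / (((n : ℝ) + 1) * ((n : ℝ) + 2))))) := by
        apply mul_le_mul_of_nonneg_left _ (by positivity)
        linarith
    _ = _ := h8

end Vale.P254.CROSS
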