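import Vale.Agent.P254.Defs

/-! P254 module FUB: integration along the fibres of a convex corner. -/

namespace Vale.P254.FUB

open MeasureTheory Set Vale.P254

theorem thm : StmtFUB := by
  intro n C hC i r hr hCr g hg hG
  obtain ⟨m, rfl⟩ : ∃ m, n = m + 1 :=
    Nat.exists_eq_succ_of_ne_zero (by rintro rfl; exact i.elim0)
  have hCm : MeasurableSet C := hC.compact.measurableSet
  have hint : IntegrableOn (fun x : Fin (m + 1) → ℝ => g (x i)) C := by
    apply ContinuousOn.integrableOn_compact hC.compact
    exact hg.comp (continuous_apply i).continuousOn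
      fun x hx => ⟨hC.nonneg x hx i, hCr x hx⟩
  have hF : Integrable (C.indicator fun x : Fin (m + 1) → ℝ => g (x i)) :=
    (integrable_indicator_iff hCm).mpr hint
  rw [← integral_indicator hCm]
  have hmp := (volume_preserving_piFinSuccAbove (fun _ : Fin (m + 1) => ℝ) i).symm
  rw [← hmp.integral_comp (MeasurableEquiv.measurableEmbedding _)]
  rw [show (volume : Measure (ℝ × (Fin m → ℝ))) = (volume : Measure ℝ).prod volume from rfl]
  have hF2 := (hmp.integrable_comp_emb (MeasurableEquiv.measurableEmbedding _)).mpr hF
  rw [show (volume : Measure (ℝ × (Fin m → ℝ))) = (volume : Measure ℝ).prod volume from rfl] at hF2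
  have hF3 := integral_prod_symm _ hF2
  simp only [Function.comp_def] at hF3
  rw [hF3]
  apply integral_nonneg
  intro y
  let ins : ℝ → (Fin (m + 1) → ℝ) := fun t => i.insertNth t y
  have hins : Continuous ins := by
    apply continuous_pi
    intro j
    refine Fin.succAboveCases i ?_ ?_ j
    · simp only [ins, Fin.insertNth_apply_same]
      exact continuous_id
    · intro k
      simpa [ins] using continuous_const
  set S : Set ℝ := ins ⁻¹' C with hS
  have hval : ∀ t, (C.indicator (fun x : Fin (m + 1) → ℝ => g (x i)))
      ((MeasurableEquiv.piFinSuccAbove (fun _ => ℝ) i).symm (t, y)) = S.indicator g t := by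
    intro t
    have h1 : ((MeasurableEquiv.piFinSuccAbove (fun _ : Fin (m + 1) => ℝ) i).symm (t, y)) =
      ins t := rfl
    rw [h1]
    by_cases ht : t ∈ S
    · rw [indicator_of_mem ht, indicator_of_mem (show ins t ∈ C from ht)]
      simp [ins]
    · rw [indicator_of_notMem ht, indicator_of_notMem (show ins t ∉ C from ht)]
  have h2 : (∫ t, (C.indicator (fun x : Fin (m + 1) → ℝ => g (x i)))
      ((MeasurableEquiv.piFinSuccAbove (fun _ => ℝ) i).symm (t, y))) = ∫ t, S.indicator g t :=
    integral_congr_ae (Filter.Eventually.of_forall hval)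
  have hScl : IsClosed S := hC.compact.isClosed.preimage hins
  have hSm : MeasurableSet S := hScl.measurableSet
  have hSr : ∀ t ∈ S, 0 ≤ t ∧ t ≤ r := by
    intro t ht
    have h3 := hC.nonneg _ ht i
    have h4 := hCr _ ht
    simp only [ins, Fin.insertNth_apply_same] at h3 h4
    exact ⟨h3, h4⟩
  have hSd : ∀ t ∈ S, ∀ s, 0 ≤ s → s ≤ t → s ∈ S := by
    intro t ht s hs hst
    refine hC.down _ ht (ins s) ?_ ?_
    · intro j
      refine Fin.succAboveCases i ?_ ?_ j
      · simpa [ins] using hs
      · intro k
        have := hC.nonneg _ ht (i.succAbove k)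
        simpa [ins] using this
    · intro j
      refine Fin.succAboveCases i ?_ ?_ j
      · simpa [ins] using hst
      · intro k
        simp [ins]
  have h5 : 0 ≤ ∫ t, S.indicator g t := by
    rw [integral_indicator hSm]
    rcases S.eq_empty_or_nonempty with h | h
    · rw [h]; simp
    · have hbdd : BddAbove S := ⟨r, fun t ht => (hSr t ht).2⟩
      have hR := hScl.csSup_mem h hbdd
      have hSI : S = Icc 0 (sSup S) := by
        ext t
        constructor
        · intro ht
          exact ⟨(hSr t ht).1, le_csSup hbdd ht⟩
        · rintro ⟨h6, h7⟩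
          exact hSd _ hR t h6 h7
      have h8 := hG (sSup S) (hSr _ hR)
      rw [intervalIntegral.integral_of_le (hSr _ hR).1, ← integral_Icc_eq_integral_Ioc] at h8
      rw [hSI]
      exact h8
  calc (0 : ℝ) ≤ ∫ t, S.indicator g t := h5
    _ = _ := h2.symm

end Vale.P254.FUB
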