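import Vale.Agent.P254.Defs

/-! P254: module JEN. -/

namespace Vale.P254.JEN

open MeasureTheory Set

theorem meas_fin {n : ℕ} {C : Set (Fin n → ℝ)} (h : IsCorner C) : volume C ≠ ⊤ :=
  h.compact.measure_lt_top.ne

theorem int_pos {n : ℕ} {C : Set (Fin n → ℝ)} (h : IsCorner C) (i : Fin n) :
    0 < ∫ x in C, x i := by
  have hm : MeasurableSet C := h.compact.measurableSet
  have hint : IntegrableOn (fun x : Fin n → ℝ => x i) C :=
    (continuous_apply i).continuousOn.integrableOn_compact h.compact
  have hnn : 0 ≤ᵐ[volume.restrict C] fun x : Fin n → ℝ => x i := by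
    filter_upwards [ae_restrict_mem hm] with x hx using h.nonneg x hx i
  rcases (integral_nonneg_of_ae hnn).lt_or_eq with h1 | h1
  · exact h1
  · exfalso
    have h2 := (integral_eq_zero_iff_of_nonneg_ae hnn hint).mp h1.symm
    have h3 : volume.restrict C {x : Fin n → ℝ | ¬ (x i = 0)} = 0 := h2
    have h4 : volume {x : Fin n → ℝ | x i = 0} = 0 := by
      rw [volume_pi]
      exact Measure.pi_hyperplane _ i 0
    have h5 : volume C = 0 := by
      have h6 : volume.restrict C {x : Fin n → ℝ | x i = 0} = 0 :=
        le_antisymm ((Measure.restrict_apply_le _ _).trans h4.le) bot_le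
      have h7 : volume.restrict C univ = 0 := by
        have : (univ : Set (Fin n → ℝ)) = {x | ¬ (x i = 0)} ∪ {x | x i = 0} := by
          ext x; simp [em']
        rw [this]
        exact le_antisymm ((measure_union_le _ _).trans (by rw [h3, h6]; simp)) bot_le
      rwa [Measure.restrict_apply_univ] at h7
    have h8 := h.pos
    rw [vol, h5] at h8
    simp at h8

theorem int_const {n : ℕ} {C : Set (Fin n → ℝ)} (c : ℝ) : ∫ _ in C, c = vol C * c := by
  rw [setIntegral_const, smul_eq_mul]
  rfl

theorem aux_int (a t : ℝ) : ∫ s in (0 : ℝ)..t, (a - 2 * s) = a * t - t ^ 2 := by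
  have h1 : IntervalIntegrable (fun _ : ℝ => a) volume 0 t :=
    Continuous.intervalIntegrable (by fun_prop) _ _
  have h2 : IntervalIntegrable (fun s : ℝ => 2 * s) volume 0 t :=
    Continuous.intervalIntegrable (by fun_prop) _ _
  rw [intervalIntegral.integral_sub h1 h2, intervalIntegral.integral_const,
    intervalIntegral.integral_const_mul, integral_id]
  simp only [smul_eq_mul]
  ring

theorem thm (hF : StmtFUB) (hC : StmtCVX) : StmtJEN := by
  intro n C h i a ha hxa φ hconv hcont r0 hr0
  have hV : 0 < vol C := h.pos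
  have hm := int_pos h i
  set m := ∫ x in C, x i with hmdef
  have hr0pos : 0 < r0 := by rw [hr0]; positivity
  have hintx : IntegrableOn (fun x : Fin n → ℝ => x i) C :=
    (continuous_apply i).continuousOn.integrableOn_compact h.compact
  have hmaps : MapsTo (fun x : Fin n → ℝ => x i) C (Icc 0 a) :=
    fun x hx => ⟨h.nonneg x hx i, hxa x hx⟩
  have hintc : ∀ c : ℝ, IntegrableOn (fun _ : Fin n → ℝ => c) C := fun c =>
    continuousOn_const.integrableOn_compact h.compact
  have hr0a : r0 ≤ a := by
    have h1 := hF n C h i a ha hxa (fun t => a - 2 * t) (by fun_prop) (by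
      intro t ht
      rw [aux_int]
      nlinarith [ht.1, ht.2])
    have h2 : ∫ x in C, (a - 2 * x i) = vol C * a - 2 * m := by
      rw [integral_sub (hintc a) (hintx.const_mul 2), int_const, integral_const_mul]
    rw [h2] at h1
    rw [hr0, div_le_iff₀ hV]
    linarith
  refine ⟨hr0pos, hr0a, ?_⟩
  obtain ⟨s, hs⟩ := hC a r0 φ hr0pos hr0a hconv hcont
  set G := (∫ u in (0 : ℝ)..r0, φ u) / r0 with hG
  have h1 := hF n C h i a ha hxa (fun t => φ t - G - s * (2 * t - r0))
    ((hcont.sub continuousOn_const).sub (by fun_prop)) hs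
  have hintφ : IntegrableOn (fun x : Fin n → ℝ => φ (x i)) C :=
    (hcont.comp (continuous_apply i).continuousOn hmaps).integrableOn_compact h.compact
  have hint2 : IntegrableOn (fun x : Fin n → ℝ => s * (2 * x i - r0)) C :=
    ((hintx.const_mul 2).sub (hintc r0)).const_mul s
  have h2 : ∫ x in C, (φ (x i) - G - s * (2 * x i - r0)) =
      (∫ x in C, φ (x i)) - vol C * G - s * (2 * m - vol C * r0) := by
    have e1 : ∫ x in C, (φ (x i) - G - s * (2 * x i - r0)) =
        (∫ x in C, (φ (x i) - G)) - ∫ x in C, s * (2 * x i - r0) :=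
      integral_sub (hintφ.sub (hintc G)) hint2
    have e2 : ∫ x in C, (φ (x i) - G) = (∫ x in C, φ (x i)) - ∫ _ in C, G :=
      integral_sub hintφ (hintc G)
    have e3 : ∫ x in C, (2 * x i - r0) = (∫ x in C, 2 * x i) - ∫ _ in C, r0 :=
      integral_sub (hintx.const_mul 2) (hintc r0)
    rw [e1, e2, int_const, integral_const_mul, e3, int_const, integral_const_mul]
  rw [h2] at h1
  have h3 : 2 * m - vol C * r0 = 0 := by
    rw [hr0]; field_simp; ring
  rw [h3] at h1
  linarith

end Vale.P254.JEN
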