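import Vale.Agent.P254.Defs

namespace Vale.P254.LAY

open MeasureTheory Set

theorem meas_eq {n : ℕ} (C : Set (Fin n → ℝ)) (i : Fin n) (t : ℝ) :
    (volume.restrict C).real {x : Fin n → ℝ | t ≤ x i} = vol (C ∩ {x | t ≤ x i}) := by
  have hm : MeasurableSet {x : Fin n → ℝ | t ≤ x i} :=
    measurableSet_le measurable_const (measurable_pi_apply i)
  rw [vol, measureReal_def, Measure.restrict_apply hm, inter_comm]

theorem meas_sq_eq {n : ℕ} (C : Set (Fin n → ℝ)) (hC : MeasurableSet C)
    (hnn : ∀ x ∈ C, ∀ i, 0 ≤ x i) (i : Fin n) (t : ℝ) (ht : 0 ≤ t) :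
    (volume.restrict C).real {x : Fin n → ℝ | t ^ 2 ≤ x i ^ 2} = vol (C ∩ {x | t ≤ x i}) := by
  have hm : MeasurableSet {x : Fin n → ℝ | t ^ 2 ≤ x i ^ 2} :=
    measurableSet_le measurable_const ((measurable_pi_apply i).pow_const 2)
  rw [vol, measureReal_def, Measure.restrict_apply hm, inter_comm]
  congr 2
  ext x
  simp only [mem_inter_iff, mem_setOf_eq]
  constructor
  · rintro ⟨h1, h2⟩
    exact ⟨h1, le_of_sq_le_sq h2 (hnn x h1 i)⟩
  · rintro ⟨h1, h2⟩
    exact ⟨h1, pow_le_pow_left₀ ht h2 2⟩

theorem thm : StmtLAY := by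
  intro n C hC i M hM hb
  have hCm : MeasurableSet C := hC.compact.measurableSet
  have hae : ∀ᵐ x ∂(volume.restrict C), x ∈ C := ae_restrict_mem hCm
  constructor
  · have hint : Integrable (fun x : Fin n → ℝ => x i) (volume.restrict C) :=
      (continuous_apply i).continuousOn.integrableOn_compact hC.compact
    rw [hint.integral_eq_integral_Ioc_meas_le (M := M)
      (hae.mono fun x hx => hC.nonneg x hx i) (hae.mono fun x hx => hb x hx),
      intervalIntegral.integral_of_le hM.le]
    refine setIntegral_congr_fun measurableSet_Ioc fun t _ => ?_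
    exact meas_eq C i t
  · have hint : Integrable (fun x : Fin n → ℝ => x i ^ 2) (volume.restrict C) :=
      ((continuous_apply i).pow 2).continuousOn.integrableOn_compact hC.compact
    rw [hint.integral_eq_integral_Ioc_meas_le (M := M ^ 2)
      (hae.mono fun x hx => sq_nonneg _)
      (hae.mono fun x hx => pow_le_pow_left₀ (hC.nonneg x hx i) (hb x hx) 2),
      intervalIntegral.integral_of_le hM.le]
    have himg : (fun t : ℝ => t ^ 2) '' Ioc 0 M = Ioc 0 (M ^ 2) := by
      ext s
      constructor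
      · rintro ⟨t, ht, rfl⟩
        exact ⟨by have := ht.1; positivity, pow_le_pow_left₀ ht.1.le ht.2 2⟩
      · intro hs
        refine ⟨Real.sqrt s, ⟨Real.sqrt_pos.2 hs.1, ?_⟩, Real.sq_sqrt hs.1.le⟩
        exact (Real.sqrt_le_sqrt hs.2).trans_eq (Real.sqrt_sq hM.le)
    rw [← himg, integral_image_eq_integral_abs_deriv_smul (f' := fun t : ℝ => 2 * t)
      measurableSet_Ioc]
    · refine setIntegral_congr_fun measurableSet_Ioc fun t ht => ?_
      simp only [smul_eq_mul]
      rw [meas_sq_eq C hCm hC.nonneg i t ht.1.le, abs_of_nonneg (by linarith [ht.1])]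
    · intro t _
      have h := (hasDerivAt_pow 2 t).hasDerivWithinAt (s := Ioc 0 M)
      simpa using h
    · intro s hs t ht hst
      simp only at hst
      exact (pow_left_inj₀ hs.1.le ht.1.le two_ne_zero).1 hst

end Vale.P254.LAY
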