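import Vale.Agent.P254.Defs

/-! P254: the moment inequality, from BM, LAY and CROSS. -/

namespace Vale.P254.MOM

open MeasureTheory Set

theorem thm (hB : StmtBM) (hL : StmtLAY) (hC : StmtCROSS) : StmtMOM := by
  intro n C hn hK i
  have hfin : volume C ≠ ⊤ := hK.compact.measure_lt_top.ne
  obtain ⟨M, hM0, hM⟩ : ∃ M : ℝ, 0 < M ∧ ∀ x ∈ C, x i ≤ M := by
    obtain ⟨B, hB⟩ := hK.compact.isBounded.exists_norm_le
    refine ⟨max B 1, lt_of_lt_of_le one_pos (le_max_right _ _), fun x hx => ?_⟩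
    calc x i ≤ |x i| := le_abs_self _
      _ = ‖x i‖ := (Real.norm_eq_abs _).symm
      _ ≤ ‖x‖ := norm_le_pi_norm x i
      _ ≤ B := hB x hx
      _ ≤ max B 1 := le_max_left _ _
  set T : ℝ → ℝ := fun t => vol (C ∩ {x : Fin n → ℝ | t ≤ x i}) with hT
  have hT0 : T 0 = vol C := by
    have : C ∩ {x : Fin n → ℝ | 0 ≤ x i} = C := by
      ext x
      exact ⟨fun h => h.1, fun h => ⟨h, hK.nonneg x h i⟩⟩
    simp only [hT, this]
  have hmono : ∀ s t : ℝ, s ≤ t → T t ≤ T s := by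
    intro s t hst
    simp only [hT, vol]
    apply ENNReal.toReal_mono
    · exact ne_top_of_le_ne_top hfin (measure_mono inter_subset_left)
    · exact measure_mono (inter_subset_inter_right _ fun x (hx : t ≤ x i) => hst.trans hx)
  have h1 := hC n M T hn hM0 (fun s _ t _ hst => hmono s t hst)
    (fun t _ => ENNReal.toReal_nonneg) (by rw [hT0]; exact hK.pos)
    (by
      intro t ht hpos μ hμ
      rw [hT0]
      exact hB n C hn hK i t μ ht.1 hμ.1 hμ.2 hpos)
  obtain ⟨e1, e2⟩ := hL n C hK i M hM0 hM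
  rw [hT0, ← e1, ← e2] at h1
  exact h1

end Vale.P254.MOM
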