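import Vale.Agent.P254.Defs

/-! P254: module NUM. -/

namespace Vale.P254.NUM

theorem real_form (n : ℕ) (hn : 3 ≤ n) :
    ((n : ℝ) + 1) ^ (2 * n + 1) < 8 ^ n * (n.factorial : ℝ) ^ 2 := by
  have h1 := Stirling.le_factorial_stirling (n + 1)
  have hN : (0 : ℝ) < ((n + 1 : ℕ) : ℝ) := by positivity
  have hsq : (√(2 * Real.pi * ((n + 1 : ℕ) : ℝ)) * (((n + 1 : ℕ) : ℝ) / Real.exp 1) ^ (n + 1)) ^ 2 ≤
      (((n + 1).factorial : ℕ) : ℝ) ^ 2 := by
    apply pow_le_pow_left₀ (by positivity) h1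
  rw [mul_pow, Real.sq_sqrt (by positivity), ← pow_mul, div_pow, Nat.factorial_succ] at hsq
  push_cast at hsq hN
  have hE : (0 : ℝ) < Real.exp 1 := Real.exp_pos 1
  -- n!^2 ≥ 2π (n+1)^(2n+1)/e^(2n+2)
  have h2 : 2 * Real.pi * ((n : ℝ) + 1) ^ (2 * n + 1) ≤
      (n.factorial : ℝ) ^ 2 * Real.exp 1 ^ (2 * n + 2) := by
    have e1 : ((n : ℝ) + 1) ^ ((n + 1) * 2) = ((n : ℝ) + 1) ^ (2 * n + 1) * ((n : ℝ) + 1) := by
      rw [← pow_succ]; congr 1; ring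
    have e2 : (n + 1) * 2 = 2 * n + 2 := by ring
    rw [e1, e2, mul_div_assoc', div_le_iff₀ (by positivity)] at hsq
    have h3 : (2 * Real.pi * ((n : ℝ) + 1) ^ (2 * n + 1)) * ((n : ℝ) + 1) ^ 2 ≤
        ((n.factorial : ℝ) ^ 2 * Real.exp 1 ^ (2 * n + 2)) * ((n : ℝ) + 1) ^ 2 := by
      nlinarith [hsq]
    exact le_of_mul_le_mul_right h3 (by positivity)
  have hpi : 3.14 < Real.pi := Real.pi_gt_d2
  have he : Real.exp 1 < 2.7182818286 := Real.exp_one_lt_d9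
  have he2 : Real.exp 1 ^ 2 < 8 := by nlinarith [Real.exp_pos 1]
  have he4 : Real.exp 1 ^ 4 < 54.6 := by
    have h0 : Real.exp 1 ^ 2 < 7.3891 := by nlinarith [Real.exp_pos 1]
    have h00 : 0 < Real.exp 1 ^ 2 := by positivity
    calc Real.exp 1 ^ 4 = Real.exp 1 ^ 2 * Real.exp 1 ^ 2 := by ring
      _ < 54.6 := by nlinarith
  have he8 : Real.exp 1 ^ 8 < 2 * Real.pi * 512 := by
    have h00 : 0 < Real.exp 1 ^ 4 := by positivity
    calc Real.exp 1 ^ 8 = Real.exp 1 ^ 4 * Real.exp 1 ^ 4 := by ring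
      _ < 2 * Real.pi * 512 := by nlinarith
  obtain ⟨k, rfl⟩ := Nat.exists_eq_add_of_le hn
  have h4 : Real.exp 1 ^ (2 * (3 + k) + 2) < 2 * Real.pi * 8 ^ (3 + k) := by
    calc Real.exp 1 ^ (2 * (3 + k) + 2) = Real.exp 1 ^ 8 * (Real.exp 1 ^ 2) ^ k := by
          rw [← pow_mul, ← pow_add]; congr 1; ring
      _ ≤ Real.exp 1 ^ 8 * 8 ^ k := by
          apply mul_le_mul_of_nonneg_left _ (by positivity)
          exact pow_le_pow_left₀ (by positivity) he2.le k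
      _ < (2 * Real.pi * 512) * 8 ^ k := mul_lt_mul_of_pos_right he8 (by positivity)
      _ = 2 * Real.pi * 8 ^ (3 + k) := by rw [pow_add]; norm_num; ring
  have hf : (0 : ℝ) < (((3 + k).factorial : ℕ) : ℝ) ^ 2 := by positivity
  have h5 : 2 * Real.pi * (((3 + k : ℕ) : ℝ) + 1) ^ (2 * (3 + k) + 1) <
      2 * Real.pi * (8 ^ (3 + k) * (((3 + k).factorial : ℕ) : ℝ) ^ 2) := by
    calc 2 * Real.pi * (((3 + k : ℕ) : ℝ) + 1) ^ (2 * (3 + k) + 1)
        ≤ (((3 + k).factorial : ℕ) : ℝ) ^ 2 * Real.exp 1 ^ (2 * (3 + k) + 2) := h2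
      _ < (((3 + k).factorial : ℕ) : ℝ) ^ 2 * (2 * Real.pi * 8 ^ (3 + k)) :=
          mul_lt_mul_of_pos_left h4 hf
      _ = 2 * Real.pi * (8 ^ (3 + k) * (((3 + k).factorial : ℕ) : ℝ) ^ 2) := by ring
  exact lt_of_mul_lt_mul_left h5 (by positivity)

theorem thm : StmtNUM := by
  intro n hn
  rcases Nat.lt_or_ge n 3 with h | h
  · have : n = 2 := by omega
    subst this
    decide
  · have := real_form n h
    exact_mod_cast this

end Vale.P254.NUM
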