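import Vale.Agent.P254.Defs

/-! P254 module SIMP, part B: moments of the simplex. -/

namespace Vale.P254.SIMPB

open MeasureTheory Set Vale.P254
open scoped Nat

/-- one-dimensional beta integral -/
lemma beta1 (p : ℕ) : ∀ (q : ℕ) (s : ℝ),
    ∫ t in (0:ℝ)..s, t ^ p * (s - t) ^ q =
      (p ! : ℝ) * (q ! : ℝ) / ((p + q + 1)! : ℝ) * s ^ (p + q + 1) := by
  induction p with
  | zero =>
    intro q s
    have h1 : ∀ t ∈ uIcc 0 s, HasDerivAt (fun t : ℝ => -(s - t) ^ (q + 1) / (q + 1))
        (t ^ 0 * (s - t) ^ q) t := by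
      intro t _
      have h2 : HasDerivAt (fun t : ℝ => (s - t) ^ (q + 1)) (((q + 1 : ℕ) : ℝ) * (s - t) ^ q * (-1)) t := by
        have h3 : HasDerivAt (fun t : ℝ => s - t) (-1) t := by
          simpa using (hasDerivAt_id t).const_sub s
        simpa using h3.fun_pow (q + 1)
      have h4 := h2.fun_neg.div_const ((q : ℝ) + 1)
      have hq : (q : ℝ) + 1 ≠ 0 := by positivity
      have h5 : t ^ 0 * (s - t) ^ q = -(((q + 1 : ℕ) : ℝ) * (s - t) ^ q * (-1)) / ((q : ℝ) + 1) := by
        push_cast
        field_simp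
        try simp
      rw [h5]
      exact h4
    rw [intervalIntegral.integral_eq_sub_of_hasDerivAt h1
      (Continuous.intervalIntegrable (by fun_prop) _ _)]
    have h5 : ((0 + q + 1)! : ℝ) = (q + 1) * (q ! : ℝ) := by
      rw [zero_add, Nat.factorial_succ]; push_cast; ring
    rw [h5]
    have : (q : ℝ) + 1 ≠ 0 := by positivity
    have h6 : (q ! : ℝ) ≠ 0 := by positivity
    simp only [sub_self, sub_zero, Nat.factorial_zero, zero_add]
    field_simp
    simp
  | succ p ih =>
    intro q s
    have h1 : ∀ t ∈ uIcc 0 s, HasDerivAt (fun t : ℝ => t ^ (p + 1) * (s - t) ^ (q + 1))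
        (((p : ℝ) + 1) * (t ^ p * (s - t) ^ (q + 1)) - ((q : ℝ) + 1) * (t ^ (p + 1) * (s - t) ^ q)) t := by
      intro t _
      have h2 : HasDerivAt (fun t : ℝ => (s - t) ^ (q + 1)) (((q + 1 : ℕ) : ℝ) * (s - t) ^ q * (-1)) t := by
        have h3 : HasDerivAt (fun t : ℝ => s - t) (-1) t := by
          simpa using (hasDerivAt_id t).const_sub s
        simpa using h3.fun_pow (q + 1)
      have h3 : HasDerivAt (fun t : ℝ => t ^ (p + 1)) (((p + 1 : ℕ) : ℝ) * t ^ p) t := by
        simpa using hasDerivAt_pow (p + 1) t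
      have h4 := h3.fun_mul h2
      have h5 : ((p : ℝ) + 1) * (t ^ p * (s - t) ^ (q + 1)) - ((q : ℝ) + 1) * (t ^ (p + 1) * (s - t) ^ q)
          = ((p + 1 : ℕ) : ℝ) * t ^ p * (s - t) ^ (q + 1) +
            t ^ (p + 1) * (((q + 1 : ℕ) : ℝ) * (s - t) ^ q * (-1)) := by
        push_cast
        ring
      rw [h5]
      exact h4
    have h5 := intervalIntegral.integral_eq_sub_of_hasDerivAt h1
      (Continuous.intervalIntegrable (by fun_prop) _ _)
    rw [intervalIntegral.integral_sub (Continuous.intervalIntegrable (by fun_prop) _ _)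
      (Continuous.intervalIntegrable (by fun_prop) _ _),
      intervalIntegral.integral_const_mul, intervalIntegral.integral_const_mul, ih (q + 1) s] at h5
    simp only [sub_self, ne_eq, Nat.add_eq_zero_iff, one_ne_zero, and_false, not_false_eq_true,
      zero_pow, mul_zero, zero_mul] at h5
    have hq : (q : ℝ) + 1 ≠ 0 := by positivity
    have h6 : (∫ t in (0:ℝ)..s, t ^ (p + 1) * (s - t) ^ q) = ((p : ℝ) + 1) *
        ((p ! : ℝ) * ((q + 1)! : ℝ) / ((p + (q + 1) + 1)! : ℝ) * s ^ (p + (q + 1) + 1)) / (q + 1) := by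
      rw [eq_div_iff hq]
      linarith
    rw [h6, show p + 1 + q + 1 = p + (q + 1) + 1 by ring, Nat.factorial_succ q,
      Nat.factorial_succ p]
    push_cast
    field_simp

/-- the simplex of size `s` -/
def D (n : ℕ) (s : ℝ) : Set (Fin n → ℝ) := {x | (∀ i, 0 ≤ x i) ∧ ∑ i, x i ≤ s}

lemma isClosed_D (n : ℕ) (s : ℝ) : IsClosed (D n s) := by
  have h1 : D n s = (⋂ i, {x : Fin n → ℝ | 0 ≤ x i}) ∩ {x | ∑ i, x i ≤ s} := by
    ext x; simp [D]
  rw [h1]
  apply IsClosed.inter
  · exact isClosed_iInter fun i => isClosed_le continuous_const (continuous_apply i)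
  · exact isClosed_le (by fun_prop) continuous_const

lemma isCompact_D (n : ℕ) (s : ℝ) : IsCompact (D n s) := by
  have h1 : D n s ⊆ Icc (0 : Fin n → ℝ) (fun _ => s) := by
    intro x hx
    refine ⟨fun i => hx.1 i, fun i => ?_⟩
    exact le_trans (Finset.single_le_sum (f := x) (fun j _ => hx.1 j) (Finset.mem_univ i)) hx.2
  exact isCompact_Icc.of_isClosed_subset (isClosed_D n s) h1

lemma mom (n : ℕ) : ∀ (a : Fin n → ℕ) (s : ℝ), 0 ≤ s →
    ∫ x in D n s, ∏ i, x i ^ a i =
      (∏ i, ((a i)! : ℝ)) / ((n + ∑ i, a i)! : ℝ) * s ^ (n + ∑ i, a i) := by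
  induction n with
  | zero =>
    intro a s hs
    have h1 : D 0 s = univ := by
      ext x; simp [D, hs]
    rw [h1]
    have h2 : (volume : Measure (Fin 0 → ℝ)).real univ = 1 := by
      rw [measureReal_def, volume_pi, Measure.pi_univ]; simp
    simp [h2]
  | succ n ih =>
    intro a s hs
    have hcont : Continuous (fun x : Fin (n + 1) → ℝ => ∏ i, x i ^ a i) := by fun_prop
    have hDm : MeasurableSet (D (n + 1) s) := (isClosed_D (n + 1) s).measurableSet
    have hint : IntegrableOn (fun x : Fin (n + 1) → ℝ => ∏ i, x i ^ a i) (D (n + 1) s) :=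
      hcont.continuousOn.integrableOn_compact (isCompact_D _ _)
    have hF : Integrable ((D (n + 1) s).indicator fun x : Fin (n + 1) → ℝ => ∏ i, x i ^ a i) :=
      (integrable_indicator_iff hDm).mpr hint
    rw [← integral_indicator hDm]
    have hmp := (volume_preserving_piFinSuccAbove (fun _ : Fin (n + 1) => ℝ) 0).symm
    rw [← hmp.integral_comp (MeasurableEquiv.measurableEmbedding _)]
    rw [show (volume : Measure (ℝ × (Fin n → ℝ))) = (volume : Measure ℝ).prod volume from rfl]
    have hF2 := (hmp.integrable_comp_emb (MeasurableEquiv.measurableEmbedding _)).mpr hF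
    rw [show (volume : Measure (ℝ × (Fin n → ℝ))) = (volume : Measure ℝ).prod volume from rfl] at hF2
    have hF3 := integral_prod _ hF2
    simp only [Function.comp_def] at hF3
    rw [hF3]
    set N := n + ∑ i, a (Fin.succ i) with hN
    set c : ℝ := (∏ i : Fin n, ((a (Fin.succ i))! : ℝ)) / (N ! : ℝ) with hc
    have hval : ∀ t : ℝ, (∫ y : Fin n → ℝ, ((D (n + 1) s).indicator
        (fun x : Fin (n + 1) → ℝ => ∏ i, x i ^ a i))
        ((MeasurableEquiv.piFinSuccAbove (fun _ => ℝ) 0).symm (t, y))) =
        (Icc 0 s).indicator (fun t => c * (t ^ a 0 * (s - t) ^ N)) t := by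
      intro t
      have h1 : ∀ y : Fin n → ℝ, ((D (n + 1) s).indicator
          (fun x : Fin (n + 1) → ℝ => ∏ i, x i ^ a i))
          ((MeasurableEquiv.piFinSuccAbove (fun _ => ℝ) 0).symm (t, y)) =
          (Icc 0 s).indicator (fun t => (D n (s - t)).indicator
            (fun y => t ^ a 0 * ∏ i, y i ^ a (Fin.succ i)) y) t := by
        intro y
        have h2 : ((MeasurableEquiv.piFinSuccAbove (fun _ : Fin (n + 1) => ℝ) 0).symm (t, y)) =
          Fin.cons t y := by
          change (Fin.insertNth 0 t y : Fin (n + 1) → ℝ) = _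
          exact Fin.insertNth_zero' t y
        rw [h2]
        by_cases h3 : t ∈ Icc 0 s
        · rw [indicator_of_mem h3]
          by_cases h4 : y ∈ D n (s - t)
          · rw [indicator_of_mem h4, indicator_of_mem]
            · simp [Fin.prod_univ_succ]
            · refine ⟨?_, ?_⟩
              · intro i
                refine Fin.cases ?_ ?_ i
                · simpa using h3.1
                · intro j; simpa using h4.1 j
              · have := h4.2
                rw [Fin.sum_univ_succ]
                simp only [Fin.cons_zero, Fin.cons_succ]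
                linarith
          · rw [indicator_of_notMem h4, indicator_of_notMem]
            rintro ⟨h5, h6⟩
            apply h4
            refine ⟨fun i => by simpa using h5 (Fin.succ i), ?_⟩
            rw [Fin.sum_univ_succ] at h6
            simp only [Fin.cons_zero, Fin.cons_succ] at h6
            linarith
        · rw [indicator_of_notMem h3, indicator_of_notMem]
          rintro ⟨h5, h6⟩
          apply h3
          refine ⟨by simpa using h5 0, ?_⟩
          rw [Fin.sum_univ_succ] at h6
          simp only [Fin.cons_zero, Fin.cons_succ] at h6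
          have h7 : 0 ≤ ∑ i, y i := Finset.sum_nonneg fun i _ => by simpa using h5 (Fin.succ i)
          linarith
      simp_rw [h1]
      by_cases h3 : t ∈ Icc 0 s
      · simp only [indicator_of_mem h3]
        rw [integral_indicator (isClosed_D n (s - t)).measurableSet, integral_const_mul,
          ih (fun i => a (Fin.succ i)) (s - t) (by linarith [h3.2])]
        rw [hc]
        ring
      · simp only [indicator_of_notMem h3]
        simp
    simp_rw [hval]
    rw [integral_indicator measurableSet_Icc, integral_Icc_eq_integral_Ioc,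
      ← intervalIntegral.integral_of_le hs, intervalIntegral.integral_const_mul, beta1]
    have h8 : n + 1 + ∑ i, a i = a 0 + N + 1 := by
      rw [Fin.sum_univ_succ, hN]; ring
    rw [h8, hc, Fin.prod_univ_succ]
    have h9 : (N ! : ℝ) ≠ 0 := by positivity
    field_simp

end Vale.P254.SIMPB
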