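import Mathlib

/-! P254: the determinant for the simplex. -/

namespace Vale.P254.SIMPC

open Matrix

theorem thm : ∀ n : ℕ, 1 ≤ n →
    (Matrix.of fun i j : Fin n => ((if i = j then (1 : ℝ) else 0) - 1 / ((n : ℝ) + 1)) /
      (((n : ℝ) + 1) * ((n : ℝ) + 2))).det = 1 / (((n : ℝ) + 1) ^ (n + 1) * ((n : ℝ) + 2) ^ n) := by
  intro n _
  have h1 : (Matrix.of fun i j : Fin n => ((if i = j then (1 : ℝ) else 0) - 1 / ((n : ℝ) + 1)) /
      (((n : ℝ) + 1) * ((n : ℝ) + 2))) = (1 / (((n : ℝ) + 1) * ((n : ℝ) + 2))) •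
      ((1 : Matrix (Fin n) (Fin n) ℝ) + Matrix.replicateCol Unit (fun _ => -(1 / ((n : ℝ) + 1))) *
        Matrix.replicateRow Unit (fun _ => (1 : ℝ))) := by
    ext i j
    simp only [Matrix.of_apply, Matrix.smul_apply, Matrix.add_apply, Matrix.one_apply,
      Matrix.mul_apply, Matrix.replicateCol_apply, Matrix.replicateRow_apply, smul_eq_mul,
      Finset.univ_unique, Finset.sum_singleton]
    ring
  rw [h1, Matrix.det_smul, Matrix.det_one_add_replicateCol_mul_replicateRow, Fintype.card_fin]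
  simp only [dotProduct, one_mul, Finset.sum_const, Finset.card_univ, Fintype.card_fin,
    nsmul_eq_mul]
  have h2 : (n : ℝ) + 1 ≠ 0 := by positivity
  have h3 : (n : ℝ) + 2 ≠ 0 := by positivity
  rw [_root_.one_div_pow, mul_pow]
  field_simp
  ring

end Vale.P254.SIMPC
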