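import Vale.Agent.P254.SIMPA
import Vale.Agent.P254.SIMPB
import Vale.Agent.P254.SIMPC

/-! P254 module SIMP: the isotropic constant of the simplex. -/

namespace Vale.P254.SIMP

open MeasureTheory Set Vale.P254 Vale.P254.SIMPB
open scoped Nat

lemma simplex_eq (n : ℕ) : simplex n = D n 1 := by
  rw [SIMPA.thm]; rfl

lemma m0 (n : ℕ) : vol (D n 1) = 1 / (n ! : ℝ) := by
  have h := mom n (fun _ => 0) 1 zero_le_one
  simp only [pow_zero, Finset.prod_const_one, Nat.factorial_zero, Nat.cast_one,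
    Finset.sum_const_zero, add_zero, one_pow, mul_one] at h
  rw [← h]
  simp [vol, measureReal_def]

lemma prod_single (n : ℕ) (i : Fin n) (k : ℕ) (x : Fin n → ℝ) :
    ∏ j, x j ^ (Pi.single i k : Fin n → ℕ) j = x i ^ k := by
  rw [Finset.prod_eq_single i]
  · simp
  · intro j _ hj
    simp [Pi.single_eq_of_ne hj]
  · intro h; exact absurd (Finset.mem_univ i) h

lemma m1 (n : ℕ) (i : Fin n) : ∫ x in D n 1, x i = 1 / ((n + 1)! : ℝ) := by
  have h := mom n (Pi.single i 1) 1 zero_le_one
  simp_rw [prod_single] at h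
  have h2 : ∏ j, (((Pi.single i 1 : Fin n → ℕ) j)! : ℝ) = 1 := by
    apply Finset.prod_eq_one
    intro j _
    by_cases hj : j = i
    · subst hj; simp
    · simp [Pi.single_eq_of_ne hj]
  rw [h2] at h
  simpa using h

lemma m2 (n : ℕ) (i : Fin n) : ∫ x in D n 1, x i * x i = 2 / ((n + 2)! : ℝ) := by
  have h := mom n (Pi.single i 2) 1 zero_le_one
  simp_rw [prod_single] at h
  have h2 : ∏ j, (((Pi.single i 2 : Fin n → ℕ) j)! : ℝ) = 2 := by
    rw [Finset.prod_eq_single i]
    · simp
    · intro j _ hj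
      simp [Pi.single_eq_of_ne hj]
    · intro h; exact absurd (Finset.mem_univ i) h
  rw [h2] at h
  simp_rw [← pow_two]
  simpa using h

lemma m11 (n : ℕ) (i j : Fin n) (hij : i ≠ j) :
    ∫ x in D n 1, x i * x j = 1 / ((n + 2)! : ℝ) := by
  have h := mom n (Pi.single i 1 + Pi.single j 1) 1 zero_le_one
  have h1 : ∀ x : Fin n → ℝ, ∏ k, x k ^ (Pi.single i 1 + Pi.single j 1 : Fin n → ℕ) k =
      x i * x j := by
    intro x
    simp_rw [Pi.add_apply, pow_add, Finset.prod_mul_distrib, prod_single]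
    ring
  simp_rw [h1] at h
  have h2 : ∏ k, (((Pi.single i 1 + Pi.single j 1 : Fin n → ℕ) k)! : ℝ) = 1 := by
    apply Finset.prod_eq_one
    intro k _
    by_cases hk : k = i
    · subst hk
      simp [Pi.single_eq_of_ne hij]
    · by_cases hk2 : k = j
      · subst hk2
        simp [Pi.single_eq_of_ne hk]
      · simp [Pi.single_eq_of_ne hk, Pi.single_eq_of_ne hk2]
  rw [h2] at h
  have h3 : n + ∑ k, (Pi.single i 1 + Pi.single j 1 : Fin n → ℕ) k = n + 2 := by
    simp [Finset.sum_add_distrib]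
  rw [h3] at h
  simpa using h

theorem thm : StmtSIMP := by
  intro n hn
  rw [simplex_eq]
  have hv : vol (D n 1) = 1 / (n ! : ℝ) := m0 n
  have hf0 : (n ! : ℝ) ≠ 0 := by positivity
  have hf1 : ((n + 1)! : ℝ) = (n + 1) * (n ! : ℝ) := by
    rw [Nat.factorial_succ]; push_cast; ring
  have hf2 : ((n + 2)! : ℝ) = (n + 2) * ((n + 1) * (n ! : ℝ)) := by
    rw [Nat.factorial_succ, Nat.factorial_succ]; push_cast; ring
  have hn1 : (n : ℝ) + 1 ≠ 0 := by positivity
  have hn2 : (n : ℝ) + 2 ≠ 0 := by positivity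
  have hcen : ∀ i, centroid (D n 1) i = 1 / ((n : ℝ) + 1) := by
    intro i
    unfold centroid
    rw [hv, m1, hf1]
    field_simp
  have hI : ∀ f : (Fin n → ℝ) → ℝ, Continuous f → Integrable f (volume.restrict (D n 1)) :=
    fun f hf => hf.continuousOn.integrableOn_compact (isCompact_D n 1)
  have hvr : (volume.restrict (D n 1)).real univ = 1 / (n ! : ℝ) := by
    rw [← hv]; simp [vol, measureReal_def]
  have hcov : covMatrix (D n 1) = Matrix.of fun i j : Fin n =>
      ((if i = j then (1 : ℝ) else 0) - 1 / ((n : ℝ) + 1)) / (((n : ℝ) + 1) * ((n : ℝ) + 2)) := by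
    ext i j
    simp only [covMatrix, Matrix.of_apply]
    rw [hcen i, hcen j, hv]
    have h1 : ∀ x : Fin n → ℝ, (x i - 1 / ((n : ℝ) + 1)) * (x j - 1 / ((n : ℝ) + 1)) =
        x i * x j - (1 / ((n : ℝ) + 1) * x i + 1 / ((n : ℝ) + 1) * x j - (1 / ((n : ℝ) + 1)) ^ 2) := by
      intro x; ring
    simp_rw [h1]
    rw [integral_sub (hI _ (by fun_prop)) (hI _ (by fun_prop)),
      integral_sub (hI _ (by fun_prop)) (hI _ (by fun_prop)),
      integral_add (hI _ (by fun_prop)) (hI _ (by fun_prop)),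
      integral_const_mul, integral_const_mul, m1, m1, integral_const, hvr]
    by_cases hij : i = j
    · subst hij
      rw [m2, hf1, hf2]
      simp only [if_true, smul_eq_mul]
      field_simp
      ring
    · rw [m11 n i j hij, hf1, hf2]
      simp only [if_neg hij, smul_eq_mul]
      field_simp
      ring
  rw [hcov, SIMPC.thm n hn, hv]
  field_simp

end Vale.P254.SIMP
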