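import Vale.Agent.P254.Defs

namespace Vale.P254.SYM
open MeasureTheory Set

/-- coordinatewise absolute value -/
def ab {n : ℕ} (x : Fin n → ℝ) : Fin n → ℝ := fun i => |x i|

theorem ab_meas {n : ℕ} : Measurable (ab (n := n)) := by
  unfold ab
  fun_prop

theorem one (s : Set ℝ) (hs : MeasurableSet s) :
    volume ((fun x : ℝ => |x|) ⁻¹' s) = 2 * volume (s ∩ Ici 0) := by
  have h1 : (fun x : ℝ => |x|) ⁻¹' s = (s ∩ Ici 0) ∪ (Neg.neg ⁻¹' (s ∩ Ioi 0)) := by
    ext x
    simp only [mem_preimage, mem_union, mem_inter_iff, mem_Ici, mem_Ioi]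
    rcases le_or_gt 0 x with h | h
    · rw [abs_of_nonneg h]
      constructor
      · intro hx
        exact Or.inl ⟨hx, h⟩
      · rintro (hx | hx)
        · exact hx.1
        · linarith [hx.2]
    · rw [abs_of_neg h]
      constructor
      · intro hx
        exact Or.inr ⟨hx, by linarith⟩
      · rintro (hx | hx)
        · linarith [hx.2]
        · exact hx.1
  have h2 : Disjoint (s ∩ Ici 0) (Neg.neg ⁻¹' (s ∩ Ioi (0 : ℝ))) := by
    rw [Set.disjoint_left]
    rintro x ⟨_, hx⟩ ⟨_, hy⟩
    simp only [mem_Ici, mem_Ioi] at hx hy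
    linarith
  have h3 : MeasurableSet (Neg.neg ⁻¹' (s ∩ Ioi (0 : ℝ))) :=
    measurable_neg (hs.inter measurableSet_Ioi)
  rw [h1, measure_union h2 h3, Measure.measure_preimage_neg]
  have h4 : volume (s ∩ Ioi (0 : ℝ)) = volume (s ∩ Ici 0) :=
    measure_congr ((ae_eq_refl s).inter Ioi_ae_eq_Ici)
  rw [h4, two_mul]

theorem sf : SigmaFinite ((2 : ENNReal) • (volume : Measure ℝ).restrict (Ici 0)) := by
  rw [two_smul]
  infer_instance

/-- the pushforward of the volume under `ab` -/
theorem mapab (n : ℕ) : (volume : Measure (Fin n → ℝ)).map ab =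
    (2 : ENNReal) ^ n • (volume : Measure (Fin n → ℝ)).restrict (Set.pi univ fun _ => Ici 0) := by
  have h1 : Measure.pi (fun _ : Fin n => (2 : ENNReal) • (volume : Measure ℝ).restrict (Ici 0))
      = (volume : Measure (Fin n → ℝ)).map ab := by
    have hsf := sf
    apply Measure.pi_eq
    intro s hs
    rw [Measure.map_apply ab_meas (MeasurableSet.univ_pi hs)]
    have : ab ⁻¹' (Set.pi univ s) = Set.pi univ (fun i => (fun x : ℝ => |x|) ⁻¹' (s i)) := by
      ext x
      simp [ab]
    rw [this, volume_pi_pi]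
    apply Finset.prod_congr rfl
    intro i _
    rw [one _ (hs i), Measure.smul_apply, Measure.restrict_apply (hs i), smul_eq_mul]
  have h2 : Measure.pi (fun _ : Fin n => (2 : ENNReal) • (volume : Measure ℝ).restrict (Ici 0))
      = (2 : ENNReal) ^ n •
        (volume : Measure (Fin n → ℝ)).restrict (Set.pi univ fun _ => Ici 0) := by
    have hsf := sf
    apply Measure.pi_eq
    intro s hs
    rw [Measure.smul_apply, Measure.restrict_apply (MeasurableSet.univ_pi hs),
      ← Set.pi_inter_distrib, volume_pi_pi, smul_eq_mul]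
    have : ∀ i : Fin n, ((2 : ENNReal) • (volume : Measure ℝ).restrict (Ici 0)) (s i)
        = 2 * volume (s i ∩ Ici 0) := by
      intro i
      rw [Measure.smul_apply, Measure.restrict_apply (hs i), smul_eq_mul]
    simp only [this]
    rw [Finset.prod_mul_distrib]
    simp
  rw [← h1, h2]

theorem setint {n : ℕ} {C : Set (Fin n → ℝ)} (hC : IsCorner C) (f : (Fin n → ℝ) → ℝ)
    (hf : Continuous f) :
    ∫ x in {x : Fin n → ℝ | (fun i => |x i|) ∈ C}, f (fun i => |x i|) =
      2 ^ n * ∫ x in C, f x := by
  have hCm : MeasurableSet C := hC.compact.measurableSet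
  have h1 := setIntegral_map (μ := (volume : Measure (Fin n → ℝ))) (g := ab) hCm
    (hf.aestronglyMeasurable) ab_meas.aemeasurable (f := f)
  have h2 : ∫ x in {x : Fin n → ℝ | (fun i => |x i|) ∈ C}, f (fun i => |x i|) =
      ∫ x in ab ⁻¹' C, f (ab x) := rfl
  rw [h2, ← h1, mapab, Measure.restrict_smul, integral_smul_measure,
    Measure.restrict_restrict hCm]
  have h3 : C ∩ (Set.pi univ fun _ => Ici (0 : ℝ)) = C := by
    apply inter_eq_left.2
    intro x hx i _
    exact hC.nonneg x hx i
  rw [h3]
  simp

theorem volK {n : ℕ} {C : Set (Fin n → ℝ)} (hC : IsCorner C) :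
    vol {x : Fin n → ℝ | (fun i => |x i|) ∈ C} = 2 ^ n * vol C := by
  have hCm : MeasurableSet C := hC.compact.measurableSet
  have h1 : volume {x : Fin n → ℝ | (fun i => |x i|) ∈ C} =
      (volume : Measure (Fin n → ℝ)).map ab C := by
    rw [Measure.map_apply ab_meas hCm]
    rfl
  unfold vol
  rw [h1, mapab, Measure.smul_apply, Measure.restrict_apply hCm]
  have h3 : C ∩ (Set.pi univ fun _ => Ici (0 : ℝ)) = C := by
    apply inter_eq_left.2
    intro x hx i _
    exact hC.nonneg x hx i
  rw [h3]
  simp

/-- reflection in the coordinate `i` -/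
def refl {n : ℕ} (i : Fin n) (x : Fin n → ℝ) : Fin n → ℝ := fun k => if k = i then - x k else x k

theorem refl_inv {n : ℕ} (i : Fin n) : Function.Involutive (refl i) := by
  intro x
  funext k
  unfold refl
  by_cases h : k = i
  · simp [h]
  · simp [h]

theorem refl_mp {n : ℕ} (i : Fin n) :
    MeasurePreserving (refl i) (volume : Measure (Fin n → ℝ)) volume := by
  have h : ∀ k : Fin n, MeasurePreserving (fun t : ℝ => if k = i then - t else t) volume volume := by
    intro k
    by_cases h : k = i
    · simp only [h, if_true]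
      exact Measure.measurePreserving_neg volume
    · simp only [h, if_false]
      exact MeasurePreserving.id volume
  exact volume_preserving_pi h

theorem odd {n : ℕ} (C : Set (Fin n → ℝ)) (i : Fin n) (g : (Fin n → ℝ) → ℝ)
    (hg : ∀ x, g (refl i x) = - g x) :
    ∫ x in {x : Fin n → ℝ | (fun i => |x i|) ∈ C}, g x = 0 := by
  have hm : Measurable (refl i) := (refl_mp i).measurable
  have he : MeasurableEmbedding (refl i) :=
    (MeasurableEquiv.ofInvolutive (refl i) (refl_inv i) hm).measurableEmbedding
  have h1 := (refl_mp i).setIntegral_preimage_emb he g {x : Fin n → ℝ | (fun i => |x i|) ∈ C}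
  have h2 : refl i ⁻¹' {x : Fin n → ℝ | (fun i => |x i|) ∈ C} =
      {x : Fin n → ℝ | (fun i => |x i|) ∈ C} := by
    ext x
    simp only [mem_preimage, Set.mem_ofPred_eq]
    have : (fun k => |refl i x k|) = fun k => |x k| := by
      funext k
      unfold refl
      by_cases h : k = i
      · simp [h]
      · simp [h]
    rw [this]
  rw [h2] at h1
  simp only [hg] at h1
  rw [integral_neg] at h1
  linarith

theorem thm : StmtSYM := by
  intro n C hC
  refine ⟨volK hC, ?_⟩
  have hc : ∀ i, centroid {x : Fin n → ℝ | (fun i => |x i|) ∈ C} i = 0 := by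
    intro i
    unfold centroid
    rw [odd C i (fun x => x i) (by
      intro x
      simp [refl])]
    simp
  ext i j
  unfold covMatrix
  simp only [hc, sub_zero]
  by_cases h : i = j
  · subst h
    rw [Matrix.diagonal_apply_eq]
    have h1 := setint hC (fun x => x i ^ 2) (by fun_prop)
    simp only [sq_abs] at h1
    have h2 : ∀ x : Fin n → ℝ, x i * x i = x i ^ 2 := fun x => by ring
    simp only [h2]
    rw [h1, volK hC]
    have h3 : (2 : ℝ) ^ n ≠ 0 := by positivity
    have h4 : vol C ≠ 0 := hC.pos.ne'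
    field_simp
  · rw [Matrix.diagonal_apply_ne _ h]
    rw [odd C i (fun x => x i * x j) (by
      intro x
      have h' : j ≠ i := fun e => h e.symm
      simp [refl, h'])]
    simp

end Vale.P254.SYM
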