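import Vale.Agent.P254.BODY
import Vale.Agent.P254.COR
import Vale.Agent.P254.SYM
import Vale.Agent.P254.FUB
import Vale.Agent.P254.CVX
import Vale.Agent.P254.JEN
import Vale.Agent.P254.BATH
import Vale.Agent.P254.BM
import Vale.Agent.P254.LAY
import Vale.Agent.P254.CROSS
import Vale.Agent.P254.MOM
import Vale.Agent.P254.NUM
import Vale.Agent.P254.SIMP

/-! P254: assembly. -/

namespace Vale.P254.All

theorem main (n : ℕ) (hn : 2 ≤ n) (a : Fin n → ℝ) (φ : Fin n → ℝ → ℝ) (h : IsOrlicz a φ) :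
    isoConst (ball a φ) ≤ √(((n : ℝ) + 1) / (8 * ((n : ℝ) + 2))) ∧
    isoConst (ball a φ) < isoConst (simplex n) :=
  FIN.thm COR.thm SYM.thm (JEN.thm FUB.thm CVX.thm) BATH.thm (MOM.thm BM.thm LAY.thm CROSS.thm)
    NUM.thm SIMP.thm n hn a φ h

theorem body {n : ℕ} {a : Fin n → ℝ} {φ : Fin n → ℝ → ℝ} (h : IsOrlicz a φ) :
    Convex ℝ (ball a φ) ∧ IsCompact (ball a φ) ∧ (interior (ball a φ)).Nonempty :=
  BODY.body COR.thm SYM.thm h

theorem simp (n : ℕ) (hn : 1 ≤ n) : (covMatrix (simplex n)).det / vol (simplex n) ^ 2 =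
    (n.factorial : ℝ) ^ 2 / (((n : ℝ) + 1) ^ (n + 1) * ((n : ℝ) + 2) ^ n) :=
  SIMP.thm n hn

end Vale.P254.All
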