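import Vale.Agent.P254.FIN

/-! P254: the generalised Orlicz balls are convex bodies; `l_p` balls. -/

namespace Vale.P254.BODY

open MeasureTheory Set

theorem mono {n : ℕ} {a : Fin n → ℝ} {φ : Fin n → ℝ → ℝ} (h : IsOrlicz a φ) (i : Fin n)
    {u v : ℝ} (hu : 0 ≤ u) (huv : u ≤ v) (hv : v ≤ a i) : φ i u ≤ φ i v := by
  rcases hu.eq_or_lt with h0 | h0
  · rw [← h0, h.zero i]
    exact h.nonneg i v ⟨hu.trans huv, hv⟩
  · have hv0 : 0 < v := h0.trans_le huv
    have hc := (h.convex i).2 (show (0 : ℝ) ∈ Icc 0 (a i) from ⟨le_rfl, (h.pos i).le⟩)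
      (show v ∈ Icc 0 (a i) from ⟨hv0.le, hv⟩) (show 0 ≤ 1 - u / v by
        rw [sub_nonneg]; exact (div_le_one hv0).mpr huv) (show 0 ≤ u / v by positivity)
      (by ring)
    simp only [smul_eq_mul, mul_zero, zero_add, h.zero i] at hc
    rw [div_mul_cancel₀ _ hv0.ne'] at hc
    have h1 : u / v ≤ 1 := (div_le_one hv0).mpr huv
    have h2 : 0 ≤ φ i v := h.nonneg i v ⟨hv0.le, hv⟩
    nlinarith

theorem convex_ball {n : ℕ} {a : Fin n → ℝ} {φ : Fin n → ℝ → ℝ} (h : IsOrlicz a φ) :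
    Convex ℝ (ball a φ) := by
  intro x hx y hy s t hs ht hst
  have hb : ∀ i, |(s • x + t • y) i| ≤ s * |x i| + t * |y i| := by
    intro i
    simp only [Pi.add_apply, Pi.smul_apply, smul_eq_mul]
    refine (abs_add_le _ _).trans ?_
    rw [abs_mul, abs_mul, abs_of_nonneg hs, abs_of_nonneg ht]
  have hb2 : ∀ i, s * |x i| + t * |y i| ≤ a i := by
    intro i
    have h1 := mul_le_mul_of_nonneg_left (hx.1 i) hs
    have h2 := mul_le_mul_of_nonneg_left (hy.1 i) ht
    calc s * |x i| + t * |y i| ≤ s * a i + t * a i := add_le_add h1 h2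
      _ = a i := by rw [← add_mul, hst, one_mul]
  refine ⟨fun i => (hb i).trans (hb2 i), ?_⟩
  have h3 : ∀ i, φ i |(s • x + t • y) i| ≤ s * φ i |x i| + t * φ i |y i| := by
    intro i
    refine (mono h i (abs_nonneg _) (hb i) (hb2 i)).trans ?_
    exact (h.convex i).2 ⟨abs_nonneg _, hx.1 i⟩ ⟨abs_nonneg _, hy.1 i⟩ hs ht hst
  calc ∑ i, φ i |(s • x + t • y) i| ≤ ∑ i, (s * φ i |x i| + t * φ i |y i|) :=
        Finset.sum_le_sum fun i _ => h3 i
    _ = s * ∑ i, φ i |x i| + t * ∑ i, φ i |y i| := by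
        rw [Finset.sum_add_distrib, Finset.mul_sum, Finset.mul_sum]
    _ ≤ s * 1 + t * 1 := add_le_add (mul_le_mul_of_nonneg_left hx.2 hs)
        (mul_le_mul_of_nonneg_left hy.2 ht)
    _ = 1 := by rw [mul_one, mul_one, hst]

theorem compact_ball {n : ℕ} {a : Fin n → ℝ} {φ : Fin n → ℝ → ℝ} (h : IsOrlicz a φ) :
    IsCompact (ball a φ) := by
  have hbox : IsCompact (Set.pi univ (fun i : Fin n => Icc (-a i) (a i))) :=
    isCompact_univ_pi fun i => isCompact_Icc
  have hcont : ContinuousOn (fun x : Fin n → ℝ => ∑ i, φ i |x i|)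
      (Set.pi univ (fun i : Fin n => Icc (-a i) (a i))) := by
    apply continuousOn_finset_sum
    intro i _
    apply (h.cont i).comp (by fun_prop)
    intro x hx
    exact ⟨abs_nonneg _, abs_le.mpr (hx i (mem_univ i))⟩
  have hclosed := hcont.preimage_isClosed_of_isClosed hbox.isClosed (isClosed_Iic (a := (1 : ℝ)))
  have heq : ball a φ = Set.pi univ (fun i : Fin n => Icc (-a i) (a i)) ∩
      (fun x : Fin n → ℝ => ∑ i, φ i |x i|) ⁻¹' Iic 1 := by
    ext x
    constructor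
    · intro hx
      exact ⟨fun i _ => abs_le.mp (hx.1 i), hx.2⟩
    · intro hx
      exact ⟨fun i => abs_le.mpr (hx.1 i (mem_univ i)), hx.2⟩
  rw [heq]
  exact hbox.of_isClosed_subset hclosed inter_subset_left

theorem vol_pos (hCOR : StmtCOR) (hSYM : StmtSYM) {n : ℕ} {a : Fin n → ℝ} {φ : Fin n → ℝ → ℝ}
    (h : IsOrlicz a φ) : 0 < vol (ball a φ) := by
  have hC := hCOR n a φ h
  obtain ⟨hv, _⟩ := hSYM n _ hC
  rw [← FIN.ball_eq] at hv
  rw [hv]
  have := hC.pos
  positivity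

theorem body (hCOR : StmtCOR) (hSYM : StmtSYM) {n : ℕ} {a : Fin n → ℝ} {φ : Fin n → ℝ → ℝ}
    (h : IsOrlicz a φ) :
    Convex ℝ (ball a φ) ∧ IsCompact (ball a φ) ∧ (interior (ball a φ)).Nonempty := by
  refine ⟨convex_ball h, compact_ball h, ?_⟩
  by_contra hne
  rw [Set.not_nonempty_iff_eq_empty] at hne
  have h1 : volume (frontier (ball a φ)) = 0 := (convex_ball h).addHaar_frontier volume
  rw [(compact_ball h).isClosed.frontier_eq, hne, Set.diff_empty] at h1
  have h2 := vol_pos hCOR hSYM h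
  rw [vol, h1] at h2
  simp at h2

theorem lp_orlicz (n : ℕ) (p : ℝ) (hp : 1 ≤ p) :
    IsOrlicz (fun _ : Fin n => (1 : ℝ)) (fun _ t => t ^ p) where
  pos := fun _ => one_pos
  zero := fun _ => Real.zero_rpow (by linarith)
  nonneg := fun _ t ht => Real.rpow_nonneg ht.1 p
  convex := fun _ => (convexOn_rpow hp).subset (fun t ht => ht.1) (convex_Icc _ _)
  cont := fun _ => (Real.continuous_rpow_const (by linarith)).continuousOn

theorem lp_eq (n : ℕ) (p : ℝ) (hp : 1 ≤ p) :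
    {x : Fin n → ℝ | ∑ i, |x i| ^ p ≤ 1} = ball (fun _ : Fin n => (1 : ℝ)) (fun _ t => t ^ p) := by
  ext x
  constructor
  · intro hx
    refine ⟨fun i => ?_, hx⟩
    have h1 : |x i| ^ p ≤ 1 := le_trans
      (Finset.single_le_sum (f := fun i => |x i| ^ p)
        (fun j _ => Real.rpow_nonneg (abs_nonneg _) p) (Finset.mem_univ i)) hx
    by_contra h2
    push Not at h2
    have h3 : 1 < |x i| ^ p := Real.one_lt_rpow h2 (by linarith)
    linarith
  · intro hx
    exact hx.2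

end Vale.P254.BODY
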