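import Vale.Agent.P254.TWO

/-! P254: the value for boxes. -/

namespace Vale.P254.BOX

open MeasureTheory Set

theorem zero_orlicz {n : ℕ} (a : Fin n → ℝ) (ha : ∀ i, 0 < a i) :
    IsOrlicz a (fun _ _ => (0 : ℝ)) where
  pos := ha
  zero := fun _ => rfl
  nonneg := fun _ _ _ => le_rfl
  convex := fun _ => convexOn_const 0 (convex_Icc _ _)
  cont := fun _ => continuousOn_const

theorem box_eq {n : ℕ} (a : Fin n → ℝ) :
    {x : Fin n → ℝ | ∀ i, |x i| ≤ a i} = ball a (fun _ _ => (0 : ℝ)) := by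
  ext x
  constructor
  · intro hx
    exact ⟨hx, by simp⟩
  · intro hx
    exact hx.1

theorem pos_eq {n : ℕ} (a : Fin n → ℝ) :
    posPart a (fun _ _ => (0 : ℝ)) = Set.pi univ (fun i => Icc 0 (a i)) := by
  ext x
  constructor
  · intro hx i _
    exact hx.1 i
  · intro hx
    exact ⟨fun i => hx i (mem_univ i), by simp⟩

theorem box (n : ℕ) (hn : 1 ≤ n) (a : Fin n → ℝ) (ha : ∀ i, 0 < a i) :
    isoConst {x : Fin n → ℝ | ∀ i, |x i| ≤ a i} = √(1 / 12) := by
  rw [box_eq]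
  have h := zero_orlicz a ha
  have hC := COR.thm n a _ h
  obtain ⟨hv, hcov⟩ := SYM.thm n _ hC
  rw [← FIN.ball_eq] at hv hcov
  have hQ : posPart a (fun _ _ => (0 : ℝ)) = BATH.Q a := pos_eq a
  have hvol : vol (posPart a (fun _ _ => (0 : ℝ))) = ∏ j, a j := by
    rw [hQ]; exact BATH.vol_Q a ha
  have hP : 0 < ∏ j, a j := Finset.prod_pos fun j _ => ha j
  have hint : ∀ i, (∫ x in posPart a (fun _ _ => (0 : ℝ)), x i ^ 2) =
      (∏ j, a j) * (a i ^ 2 / 3) := by
    intro i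
    rw [hQ, BATH.fubini a ha i (fun t => t ^ 2), integral_pow]
    have := (ha i).ne'
    push_cast
    field_simp
    ring
  have hdet : (covMatrix (ball a (fun _ _ => (0 : ℝ)))).det = (1 / 3 : ℝ) ^ n * (∏ j, a j) ^ 2 := by
    rw [hcov, Matrix.det_diagonal]
    have h1 : ∀ i, (∫ x in posPart a (fun _ _ => (0 : ℝ)), x i ^ 2) /
        vol (posPart a (fun _ _ => (0 : ℝ))) = (1 / 3) * a i ^ 2 := by
      intro i
      rw [hint, hvol, mul_div_cancel_left₀ _ hP.ne']
      ring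
    rw [Finset.prod_congr rfl fun i _ => h1 i, Finset.prod_mul_distrib, Finset.prod_const,
      Finset.card_univ, Fintype.card_fin, Finset.prod_pow]
  have hb : (covMatrix (ball a (fun _ _ => (0 : ℝ)))).det / vol (ball a (fun _ _ => (0 : ℝ))) ^ 2 =
      (1 / 12 : ℝ) ^ n := by
    rw [hdet, hv, hvol, mul_pow, ← pow_mul, mul_comm n 2, pow_mul,
      mul_div_mul_right _ _ (pow_pos hP 2).ne', ← div_pow]
    norm_num
  have hnpos : (0 : ℝ) < n := by exact_mod_cast (by omega : 0 < n)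
  rw [isoConst, hb, ← Real.rpow_natCast, ← Real.rpow_mul (by positivity), Real.sqrt_eq_rpow]
  congr 1
  field_simp

end Vale.P254.BOX
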