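import Vale.Agent.P254.CVX

/-! P254: the version of CVX for functions that are convex in the square of the variable. -/

namespace Vale.P254.CVX2

open MeasureTheory intervalIntegral

theorem chord (a : ℝ) (ha : 0 ≤ a) (φ : ℝ → ℝ)
    (hcv : ConvexOn ℝ (Set.Icc 0 (a ^ 2)) (fun s => φ (√s))) (x y z : ℝ)
    (hx : 0 ≤ x) (hxy : x ≤ y) (hyz : y ≤ z) (hz : z ≤ a) :
    (z ^ 2 - x ^ 2) * φ y ≤ (z ^ 2 - y ^ 2) * φ x + (y ^ 2 - x ^ 2) * φ z := by
  have hy : 0 ≤ y := hx.trans hxy
  have hz0 : 0 ≤ z := hy.trans hyz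
  have h := CVX.chord (a ^ 2) (fun s => φ (√s)) hcv (x ^ 2) (y ^ 2) (z ^ 2) (sq_nonneg x)
    (pow_le_pow_left₀ hx hxy 2) (pow_le_pow_left₀ hy hyz 2) (pow_le_pow_left₀ hz0 hz 2)
  simp only [Real.sqrt_sq hx, Real.sqrt_sq hy, Real.sqrt_sq hz0] at h
  exact h

theorem thm (a r0 : ℝ) (φ : ℝ → ℝ) (h0 : 0 < r0) (ha : r0 ≤ a)
    (hcv : ConvexOn ℝ (Set.Icc 0 (a ^ 2)) (fun s => φ (√s)))
    (hct : ContinuousOn φ (Set.Icc 0 a)) : ∃ s : ℝ, ∀ r ∈ Set.Icc 0 a,
      0 ≤ ∫ t in (0 : ℝ)..r, (φ t - (∫ u in (0 : ℝ)..r0, φ u) / r0 - s * (3 * t ^ 2 - r0 ^ 2)) := by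
  obtain ⟨G0, hG0⟩ : ∃ G0 : ℝ, G0 = (∫ u in (0 : ℝ)..r0, φ u) / r0 := ⟨_, rfl⟩
  obtain ⟨s, hs⟩ : ∃ s : ℝ, s = (φ r0 - G0) / (2 * r0 ^ 2) := ⟨_, rfl⟩
  rw [← hG0]
  refine ⟨s, ?_⟩
  obtain ⟨h, hh⟩ : ∃ h : ℝ → ℝ, h = fun t => φ t - G0 - s * (3 * t ^ 2 - r0 ^ 2) := ⟨_, rfl⟩
  have hgoal : ∀ r ∈ Set.Icc 0 a, 0 ≤ ∫ t in (0 : ℝ)..r, h t := by
    have hr0 : h r0 = 0 := by
      rw [hh, hs]
      field_simp
      ring
    have hch : ∀ x y z : ℝ, 0 ≤ x → x ≤ y → y ≤ z → z ≤ a →
        (z ^ 2 - x ^ 2) * h y ≤ (z ^ 2 - y ^ 2) * h x + (y ^ 2 - x ^ 2) * h z := by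
      intro x y z hx hxy hyz hz
      have := chord a (h0.le.trans ha) φ hcv x y z hx hxy hyz hz
      simp only [hh]
      nlinarith [this]
    have hcth : ContinuousOn h (Set.Icc 0 a) := by
      rw [hh]
      apply ContinuousOn.sub (ContinuousOn.sub hct continuousOn_const)
      fun_prop
    have hint : ∀ x ∈ Set.Icc 0 a, ∀ y ∈ Set.Icc 0 a, IntervalIntegrable h volume x y := by
      intro x hx y hy
      apply ContinuousOn.intervalIntegrable
      apply hcth.mono
      intro z hz
      rcases Set.mem_uIcc.1 hz with h1 | h1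
      · exact ⟨le_trans hx.1 h1.1, le_trans h1.2 hy.2⟩
      · exact ⟨le_trans hy.1 h1.1, le_trans h1.2 hx.2⟩
    have m0 : (0 : ℝ) ∈ Set.Icc 0 a := ⟨le_rfl, by linarith⟩
    have mr0 : r0 ∈ Set.Icc 0 a := ⟨h0.le, ha⟩
    have hφi : IntervalIntegrable φ volume 0 r0 := by
      apply ContinuousOn.intervalIntegrable
      apply hct.mono
      intro z hz
      rw [Set.uIcc_of_le h0.le] at hz
      exact ⟨hz.1, le_trans hz.2 ha⟩
    have hz0 : ∫ t in (0 : ℝ)..r0, h t = 0 := by
      rw [hh]
      rw [intervalIntegral.integral_sub (hφi.sub intervalIntegrable_const)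
        (Continuous.intervalIntegrable (by fun_prop) _ _)]
      rw [intervalIntegral.integral_sub hφi intervalIntegrable_const]
      rw [intervalIntegral.integral_const_mul]
      rw [intervalIntegral.integral_sub (Continuous.intervalIntegrable (by fun_prop) _ _)
        intervalIntegrable_const]
      rw [intervalIntegral.integral_const_mul, integral_pow, intervalIntegral.integral_const,
        intervalIntegral.integral_const]
      have : (∫ u in (0 : ℝ)..r0, φ u) = G0 * r0 := by
        rw [hG0]; field_simp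
      rw [this]
      simp only [smul_eq_mul]
      push_cast
      ring
    -- nonnegativity after r0
    have hpos : ∀ t, r0 ≤ t → t ≤ a → 0 ≤ h t := by
      intro t ht1 ht2
      by_contra hneg
      push Not at hneg
      have htr : r0 < t := by
        rcases eq_or_lt_of_le ht1 with h1 | h1
        · rw [← h1, hr0] at hneg
          exact absurd hneg (lt_irrefl _)
        · exact h1
      have hlow : ∀ u ∈ Set.Icc 0 r0, (-h t / (t ^ 2 - r0 ^ 2)) * (r0 ^ 2 - u ^ 2) ≤ h u := by
        intro u hu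
        have h1 := hch u r0 t hu.1 hu.2 ht1 ht2
        rw [hr0, mul_zero] at h1
        have h2 : 0 < t ^ 2 - r0 ^ 2 := by nlinarith
        rw [div_mul_eq_mul_div, div_le_iff₀ h2]
        nlinarith [h1]
      have h3 : ∫ u in (0 : ℝ)..r0, (-h t / (t ^ 2 - r0 ^ 2)) * (r0 ^ 2 - u ^ 2) ≤
          ∫ u in (0 : ℝ)..r0, h u :=
        intervalIntegral.integral_mono_on h0.le
          (Continuous.intervalIntegrable (by fun_prop) _ _) (hint 0 m0 r0 mr0) hlow
      rw [hz0, intervalIntegral.integral_const_mul, intervalIntegral.integral_sub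
        intervalIntegrable_const (Continuous.intervalIntegrable (by fun_prop) _ _),
        intervalIntegral.integral_const, integral_pow] at h3
      have h4 : 0 < -h t / (t ^ 2 - r0 ^ 2) := div_pos (by linarith) (by nlinarith)
      have h5 : (0 : ℝ) < (r0 - 0) • r0 ^ 2 - (r0 ^ (2 + 1) - 0 ^ (2 + 1)) / ((2 : ℕ) + 1) := by
        simp only [smul_eq_mul]
        push_cast
        have := pow_pos h0 3
        nlinarith
      exact absurd h3 (not_le.2 (mul_pos h4 h5))
    intro r hr
    rcases le_total r r0 with hrr | hrr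
    · rcases le_or_gt (h r) 0 with hle | hgt
      · -- the tail integral is nonpositive
        have h1 : ∫ t in r..r0, h t ≤ 0 := by
          have h2 : ∫ t in r..r0, h t ≤ ∫ t in r..r0, (0 : ℝ) := by
            apply intervalIntegral.integral_mono_on hrr (hint r hr r0 mr0) intervalIntegrable_const
            intro t ht
            rcases eq_or_lt_of_le hrr with h3 | h3
            · have : t = r0 := le_antisymm ht.2 (by linarith [ht.1])
              rw [this, hr0]
            · have h4 := hch r t r0 hr.1 ht.1 ht.2 ha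
              rw [hr0, mul_zero, add_zero] at h4
              have h5 : (r0 ^ 2 - t ^ 2) * h r ≤ 0 :=
                mul_nonpos_of_nonneg_of_nonpos (by nlinarith [ht.2, ht.1, hr.1]) hle
              have h6 : 0 < r0 ^ 2 - r ^ 2 := by nlinarith [hr.1]
              by_contra h7
              push Not at h7
              have := mul_pos h6 h7
              linarith
          simpa using h2
        have h2 := intervalIntegral.integral_add_adjacent_intervals (hint 0 m0 r hr)
          (hint r hr r0 mr0)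
        linarith
      · apply intervalIntegral.integral_nonneg hr.1
        intro t ht
        rcases eq_or_lt_of_le hrr with h3 | h3
        · rw [h3, hr0] at hgt
          exact absurd hgt (lt_irrefl _)
        · have h4 := hch t r r0 ht.1 ht.2 hrr ha
          rw [hr0, mul_zero, add_zero] at h4
          have h5 : 0 < (r0 ^ 2 - t ^ 2) * h r := mul_pos (by nlinarith [ht.2, ht.1, hr.1]) hgt
          have h6 : 0 < r0 ^ 2 - r ^ 2 := by nlinarith [hr.1]
          by_contra h7
          push Not at h7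
          have := mul_nonpos_of_nonneg_of_nonpos h6.le h7.le
          linarith
    · have h2 := intervalIntegral.integral_add_adjacent_intervals (hint 0 m0 r0 mr0)
          (hint r0 mr0 r hr)
      have h3 : 0 ≤ ∫ t in r0..r, h t := by
        apply intervalIntegral.integral_nonneg hrr
        intro t ht
        exact hpos t ht.1 (le_trans ht.2 hr.2)
      linarith
  intro r hr
  have := hgoal r hr
  rw [hh] at this
  exact this

end Vale.P254.CVX2
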