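import Vale.Agent.P254.Defs

/-! P254: combination. -/

namespace Vale.P254.FIN

open MeasureTheory

theorem ball_eq {n : ℕ} (a : Fin n → ℝ) (φ : Fin n → ℝ → ℝ) :
    ball a φ = {x : Fin n → ℝ | (fun i => |x i|) ∈ posPart a φ} := by
  ext x
  simp only [ball, posPart, Set.mem_ofPred_eq, abs_nonneg, true_and]

theorem bound (hCOR : StmtCOR) (hSYM : StmtSYM) (hJEN : StmtJEN) (hBATH : StmtBATH)
    (hMOM : StmtMOM) (n : ℕ) (hn : 1 ≤ n) (a : Fin n → ℝ) (φ : Fin n → ℝ → ℝ)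
    (h : IsOrlicz a φ) :
    0 ≤ (covMatrix (ball a φ)).det / vol (ball a φ) ^ 2 ∧
    (covMatrix (ball a φ)).det / vol (ball a φ) ^ 2 ≤ (((n : ℝ) + 1) / (8 * ((n : ℝ) + 2))) ^ n := by
  have hC := hCOR n a φ h
  obtain ⟨hv, hcov⟩ := hSYM n _ hC
  rw [← ball_eq] at hv hcov
  set C := posPart a φ with hCdef
  set V := vol C with hV
  have hVpos : 0 < V := hC.pos
  set m : Fin n → ℝ := fun i => ∫ x in C, x i with hm
  set q : Fin n → ℝ := fun i => ∫ x in C, x i ^ 2 with hq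
  set r : Fin n → ℝ := fun i => 2 * m i / V with hr
  have hJ : ∀ i, 0 < r i ∧ r i ≤ a i ∧
      V * ((∫ u in (0 : ℝ)..(r i), φ i u) / r i) ≤ ∫ x in C, φ i (x i) := by
    intro i
    exact hJEN n C hC i (a i) (h.pos i) (fun x hx => (hx.1 i).2) (φ i) (h.convex i) (h.cont i)
      (r i) rfl
  have hprod : ∏ i, r i ≤ V :=
    hBATH n a φ h hC r (fun i => (hJ i).1) (fun i => (hJ i).2.1) (fun i => (hJ i).2.2)
  have hq0 : ∀ i, 0 ≤ q i := fun i => integral_nonneg (fun x => sq_nonneg _)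
  have hn2 : (0 : ℝ) < (n : ℝ) + 2 := by positivity
  have hqi : ∀ i, q i / V ≤ (((n : ℝ) + 1) / (2 * ((n : ℝ) + 2))) * r i ^ 2 := by
    intro i
    have h1 := hMOM n C hn hC i
    have h2 : (((n : ℝ) + 1) / (2 * ((n : ℝ) + 2))) * r i ^ 2 =
        (2 * ((n : ℝ) + 1) * m i ^ 2) / (((n : ℝ) + 2) * V * V) := by
      simp only [hr]; field_simp
    rw [h2, div_le_div_iff₀ hVpos (by positivity)]
    calc q i * (((n : ℝ) + 2) * V * V) = (((n : ℝ) + 2) * V * q i) * V := by ring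
      _ ≤ (2 * ((n : ℝ) + 1) * m i ^ 2) * V := by
          exact mul_le_mul_of_nonneg_right h1 hVpos.le
  have hdet : (covMatrix (ball a φ)).det = ∏ i, (q i / V) := by
    rw [hcov, Matrix.det_diagonal]
  have hdet0 : 0 ≤ ∏ i, (q i / V) := Finset.prod_nonneg fun i _ => div_nonneg (hq0 i) hVpos.le
  have hdet1 : ∏ i, (q i / V) ≤ (((n : ℝ) + 1) / (2 * ((n : ℝ) + 2))) ^ n * V ^ 2 := by
    calc ∏ i, (q i / V) ≤ ∏ i, ((((n : ℝ) + 1) / (2 * ((n : ℝ) + 2))) * r i ^ 2) :=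
          Finset.prod_le_prod (fun i _ => div_nonneg (hq0 i) hVpos.le) (fun i _ => hqi i)
      _ = (((n : ℝ) + 1) / (2 * ((n : ℝ) + 2))) ^ n * (∏ i, r i) ^ 2 := by
          rw [Finset.prod_mul_distrib, Finset.prod_const, Finset.card_univ, Fintype.card_fin,
            Finset.prod_pow]
      _ ≤ (((n : ℝ) + 1) / (2 * ((n : ℝ) + 2))) ^ n * V ^ 2 := by
          apply mul_le_mul_of_nonneg_left _ (by positivity)
          apply pow_le_pow_left₀ (Finset.prod_nonneg fun i _ => (hJ i).1.le) hprod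
  rw [hdet, hv]
  constructor
  · exact div_nonneg hdet0 (sq_nonneg _)
  · rw [div_le_iff₀ (by positivity)]
    refine hdet1.trans (le_of_eq ?_)
    have h8 : (((n : ℝ) + 1) / (8 * ((n : ℝ) + 2))) = (((n : ℝ) + 1) / (2 * ((n : ℝ) + 2))) / 4 := by
      field_simp; ring
    have h4 : ((2 : ℝ) ^ n * V) ^ 2 = 4 ^ n * V ^ 2 := by
      rw [mul_pow, ← pow_mul, mul_comm n 2, pow_mul]; norm_num
    have h44 : (4 : ℝ) ^ n ≠ 0 := by positivity
    have key : ∀ x : ℝ, x ^ n * V ^ 2 = (x / 4) ^ n * (4 ^ n * V ^ 2) := by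
      intro x
      rw [div_pow, ← mul_assoc, div_mul_cancel₀ _ h44]
    rw [h8, h4]
    exact key _

theorem num_real (hNUM : StmtNUM) (n : ℕ) (hn : 2 ≤ n) :
    (((n : ℝ) + 1) / (8 * ((n : ℝ) + 2))) ^ n <
      (n.factorial : ℝ) ^ 2 / (((n : ℝ) + 1) ^ (n + 1) * ((n : ℝ) + 2) ^ n) := by
  have h1 : (((n : ℝ) + 1) ^ (2 * n + 1)) < 8 ^ n * (n.factorial : ℝ) ^ 2 := by
    exact_mod_cast hNUM n hn
  rw [div_pow, mul_pow, div_lt_div_iff₀ (by positivity) (by positivity)]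
  have e : ((n : ℝ) + 1) ^ n * (((n : ℝ) + 1) ^ (n + 1) * ((n : ℝ) + 2) ^ n) =
      ((n : ℝ) + 1) ^ (2 * n + 1) * ((n : ℝ) + 2) ^ n := by
    rw [← mul_assoc, ← pow_add]; congr 2; omega
  rw [e]
  calc ((n : ℝ) + 1) ^ (2 * n + 1) * ((n : ℝ) + 2) ^ n
      < (8 ^ n * (n.factorial : ℝ) ^ 2) * ((n : ℝ) + 2) ^ n :=
        mul_lt_mul_of_pos_right h1 (by positivity)
    _ = (n.factorial : ℝ) ^ 2 * (8 ^ n * ((n : ℝ) + 2) ^ n) := by ring

theorem thm (hCOR : StmtCOR) (hSYM : StmtSYM) (hJEN : StmtJEN) (hBATH : StmtBATH)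
    (hMOM : StmtMOM) (hNUM : StmtNUM) (hSIMP : StmtSIMP) (n : ℕ) (hn : 2 ≤ n)
    (a : Fin n → ℝ) (φ : Fin n → ℝ → ℝ) (h : IsOrlicz a φ) :
    isoConst (ball a φ) ≤ √(((n : ℝ) + 1) / (8 * ((n : ℝ) + 2))) ∧
    isoConst (ball a φ) < isoConst (simplex n) := by
  obtain ⟨h0, h1⟩ := bound hCOR hSYM hJEN hBATH hMOM n (by omega) a φ h
  have hnpos : (0 : ℝ) < n := by exact_mod_cast (by omega : 0 < n)
  have hexp : (0 : ℝ) < 1 / (2 * (n : ℝ)) := by positivity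
  constructor
  · have h2 : isoConst (ball a φ) ≤
        ((((n : ℝ) + 1) / (8 * ((n : ℝ) + 2))) ^ n) ^ (1 / (2 * (n : ℝ))) :=
      Real.rpow_le_rpow h0 h1 hexp.le
    refine h2.trans (le_of_eq ?_)
    rw [← Real.rpow_natCast, ← Real.rpow_mul (by positivity), Real.sqrt_eq_rpow]
    congr 1
    field_simp
  · rw [isoConst, isoConst, hSIMP n (by omega)]
    exact Real.rpow_lt_rpow h0 (h1.trans_lt (num_real hNUM n hn)) hexp

end Vale.P254.FIN
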