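import Vale.Agent.P254.CVX2
import Vale.Agent.P254.JEN

/-! P254: the version of JEN with second moments. -/

namespace Vale.P254.JEN2

open MeasureTheory Set

theorem aux_int (a t : ℝ) : ∫ s in (0 : ℝ)..t, (a ^ 2 - 3 * s ^ 2) = a ^ 2 * t - t ^ 3 := by
  have h1 : IntervalIntegrable (fun _ : ℝ => a ^ 2) volume 0 t :=
    Continuous.intervalIntegrable (by fun_prop) _ _
  have h2 : IntervalIntegrable (fun s : ℝ => 3 * s ^ 2) volume 0 t :=
    Continuous.intervalIntegrable (by fun_prop) _ _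
  rw [intervalIntegral.integral_sub h1 h2, intervalIntegral.integral_const,
    intervalIntegral.integral_const_mul, integral_pow]
  simp only [smul_eq_mul]
  push_cast
  ring

theorem sq_pos {n : ℕ} {C : Set (Fin n → ℝ)} (h : IsCorner C) (i : Fin n) :
    0 < ∫ x in C, x i ^ 2 := by
  have hm := JEN.int_pos h i
  have hm2 : MeasurableSet C := h.compact.measurableSet
  have hint : IntegrableOn (fun x : Fin n → ℝ => x i) C :=
    (continuous_apply i).continuousOn.integrableOn_compact h.compact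
  have hint2 : IntegrableOn (fun x : Fin n → ℝ => x i ^ 2) C :=
    ((continuous_apply i).pow 2).continuousOn.integrableOn_compact h.compact
  have hnn : 0 ≤ᵐ[volume.restrict C] fun x : Fin n → ℝ => x i ^ 2 :=
    Filter.Eventually.of_forall fun x => sq_nonneg _
  rcases (integral_nonneg_of_ae hnn).lt_or_eq with h1 | h1
  · exact h1
  · exfalso
    have h2 := (integral_eq_zero_iff_of_nonneg_ae hnn hint2).mp h1.symm
    have h3 : ∫ x in C, x i = 0 := by
      rw [integral_eq_zero_of_ae]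
      filter_upwards [h2] with x hx
      simpa using hx
    linarith

theorem thm (hF : StmtFUB) {n : ℕ} {C : Set (Fin n → ℝ)} (h : IsCorner C) (i : Fin n) {a : ℝ}
    (ha : 0 < a) (hxa : ∀ x ∈ C, x i ≤ a) {φ : ℝ → ℝ}
    (hconv : ConvexOn ℝ (Icc 0 (a ^ 2)) (fun s => φ (√s))) (hcont : ContinuousOn φ (Icc 0 a))
    {r0 : ℝ} (hr0 : r0 = √(3 * (∫ x in C, x i ^ 2) / vol C)) :
    0 < r0 ∧ r0 ≤ a ∧ vol C * ((∫ u in (0 : ℝ)..r0, φ u) / r0) ≤ ∫ x in C, φ (x i) := by
  have hV : 0 < vol C := h.pos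
  have hm := sq_pos h i
  set m := ∫ x in C, x i ^ 2 with hmdef
  have hr0pos : 0 < r0 := by rw [hr0]; positivity
  have hr0sq : r0 ^ 2 = 3 * m / vol C := by rw [hr0, Real.sq_sqrt (by positivity)]
  have hintx : IntegrableOn (fun x : Fin n → ℝ => x i ^ 2) C :=
    ((continuous_apply i).pow 2).continuousOn.integrableOn_compact h.compact
  have hmaps : MapsTo (fun x : Fin n → ℝ => x i) C (Icc 0 a) :=
    fun x hx => ⟨h.nonneg x hx i, hxa x hx⟩
  have hintc : ∀ c : ℝ, IntegrableOn (fun _ : Fin n → ℝ => c) C := fun c =>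
    continuousOn_const.integrableOn_compact h.compact
  have hr0a : r0 ≤ a := by
    have h1 := hF n C h i a ha hxa (fun t => a ^ 2 - 3 * t ^ 2) (by fun_prop) (by
      intro t ht
      rw [aux_int]
      have h4 : t ^ 2 ≤ a ^ 2 := pow_le_pow_left₀ ht.1 ht.2 2
      nlinarith [ht.1, mul_nonneg ht.1 (sub_nonneg.mpr h4)])
    have h2 : ∫ x in C, (a ^ 2 - 3 * x i ^ 2) = vol C * a ^ 2 - 3 * m := by
      rw [integral_sub (hintc (a ^ 2)) (hintx.const_mul 3), JEN.int_const, integral_const_mul]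
    rw [h2] at h1
    have h3 : r0 ^ 2 ≤ a ^ 2 := by
      rw [hr0sq, div_le_iff₀ hV]
      linarith
    exact le_of_sq_le_sq h3 ha.le
  refine ⟨hr0pos, hr0a, ?_⟩
  obtain ⟨s, hs⟩ := CVX2.thm a r0 φ hr0pos hr0a hconv hcont
  set G := (∫ u in (0 : ℝ)..r0, φ u) / r0 with hG
  have h1 := hF n C h i a ha hxa (fun t => φ t - G - s * (3 * t ^ 2 - r0 ^ 2))
    ((hcont.sub continuousOn_const).sub (by fun_prop)) hs
  have hintφ : IntegrableOn (fun x : Fin n → ℝ => φ (x i)) C :=
    (hcont.comp (continuous_apply i).continuousOn hmaps).integrableOn_compact h.compact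
  have hint2 : IntegrableOn (fun x : Fin n → ℝ => s * (3 * x i ^ 2 - r0 ^ 2)) C :=
    ((hintx.const_mul 3).sub (hintc (r0 ^ 2))).const_mul s
  have h2 : ∫ x in C, (φ (x i) - G - s * (3 * x i ^ 2 - r0 ^ 2)) =
      (∫ x in C, φ (x i)) - vol C * G - s * (3 * m - vol C * r0 ^ 2) := by
    have e1 : ∫ x in C, (φ (x i) - G - s * (3 * x i ^ 2 - r0 ^ 2)) =
        (∫ x in C, (φ (x i) - G)) - ∫ x in C, s * (3 * x i ^ 2 - r0 ^ 2) :=
      integral_sub (hintφ.sub (hintc G)) hint2
    have e2 : ∫ x in C, (φ (x i) - G) = (∫ x in C, φ (x i)) - ∫ _ in C, G :=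
      integral_sub hintφ (hintc G)
    have e3 : ∫ x in C, (3 * x i ^ 2 - r0 ^ 2) = (∫ x in C, 3 * x i ^ 2) - ∫ _ in C, r0 ^ 2 :=
      integral_sub (hintx.const_mul 3) (hintc (r0 ^ 2))
    rw [e1, e2, JEN.int_const, integral_const_mul, e3, JEN.int_const, integral_const_mul]
  rw [h2] at h1
  have h3 : 3 * m - vol C * r0 ^ 2 = 0 := by
    rw [hr0sq]; field_simp; ring
  rw [h3] at h1
  linarith

end Vale.P254.JEN2
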