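import Vale.Agent.P254.Defs

/-! P254, part A of SIMP: the simplex as a sublevel set. -/

namespace Vale.P254.SimpA

theorem set_eq (n : ℕ) : simplex n = {x : Fin n → ℝ | (∀ i, 0 ≤ x i) ∧ ∑ i, x i ≤ 1} := by
  apply Set.Subset.antisymm
  · unfold simplex
    apply convexHull_min
    · intro x hx
      rcases hx with hx | ⟨i, hi⟩
      · rw [hx]
        refine ⟨fun i => le_rfl, ?_⟩
        simp
      · rw [← hi]
        refine ⟨fun j => ?_, ?_⟩
        · by_cases hj : j = i
          · subst hj; simp
          · simp [Pi.single_eq_of_ne hj]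
        · simp [Finset.sum_pi_single']
    · intro x hx y hy s t hs ht hst
      refine ⟨fun i => ?_, ?_⟩
      · have h1 := mul_nonneg hs (hx.1 i)
        have h2 := mul_nonneg ht (hy.1 i)
        simp only [Pi.add_apply, Pi.smul_apply, smul_eq_mul]
        linarith
      · simp only [Pi.add_apply, Pi.smul_apply, smul_eq_mul]
        rw [Finset.sum_add_distrib, ← Finset.mul_sum, ← Finset.mul_sum]
        have h1 := mul_le_mul_of_nonneg_left hx.2 hs
        have h2 := mul_le_mul_of_nonneg_left hy.2 ht
        linarith
  · intro x hx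
    have hconv : Convex ℝ (simplex n) := convex_convexHull ℝ _
    have h := hconv.sum_mem (t := (Finset.univ : Finset (Option (Fin n))))
      (w := fun o => Option.elim o (1 - ∑ i, x i) x)
      (z := fun o => Option.elim o 0 (fun i => (Pi.single i (1 : ℝ) : Fin n → ℝ)))
      (by
        intro o _
        cases o with
        | none => simpa using hx.2
        | some i => simpa using hx.1 i)
      (by
        rw [Fintype.sum_option]
        simp)
      (by
        intro o _
        cases o with
        | none => exact subset_convexHull ℝ _ (Set.mem_insert _ _)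
        | some i => exact subset_convexHull ℝ _ (Set.mem_insert_of_mem _ ⟨i, rfl⟩))
    rw [Fintype.sum_option] at h
    have e : (Option.elim (none : Option (Fin n)) (1 - ∑ i, x i) x) •
        (Option.elim (none : Option (Fin n)) (0 : Fin n → ℝ)
          (fun i => (Pi.single i (1 : ℝ) : Fin n → ℝ))) +
        ∑ i : Fin n, (Option.elim (some i) (1 - ∑ i, x i) x) •
          (Option.elim (some i) (0 : Fin n → ℝ)
            (fun i => (Pi.single i (1 : ℝ) : Fin n → ℝ))) = x := by
      funext j
      simp [Finset.sum_apply, Pi.single_apply]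
    rw [e] at h
    exact h

theorem simplex_eq (n : ℕ) (_hn : 1 ≤ n) :
    simplex n = {x : Fin n → ℝ | (∀ i, 0 ≤ x i) ∧ ∑ i, x i ≤ 1} := set_eq n

end Vale.P254.SimpA

namespace Vale.P254.SIMPA

theorem thm : ∀ n : ℕ, simplex n = {x : Fin n → ℝ | (∀ i, 0 ≤ x i) ∧ ∑ i, x i ≤ 1} :=
  SimpA.set_eq

end Vale.P254.SIMPA
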