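import Vale.Agent.P254.JEN2
import Vale.Agent.P254.All

/-! P254: sharp bound for 2-convex generalised Orlicz balls. -/

namespace Vale.P254.TWO

open MeasureTheory Set

theorem bound (n : ℕ) (hn : 1 ≤ n) (a : Fin n → ℝ) (φ : Fin n → ℝ → ℝ) (h : IsOrlicz a φ)
    (h2 : ∀ i, ConvexOn ℝ (Icc 0 (a i ^ 2)) (fun s => φ i (√s))) :
    isoConst (ball a φ) ≤ √(1 / 12) := by
  have hC := COR.thm n a φ h
  obtain ⟨hv, hcov⟩ := SYM.thm n _ hC
  rw [← FIN.ball_eq] at hv hcov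
  set C := posPart a φ with hCdef
  set V := vol C with hV
  have hVpos : 0 < V := hC.pos
  set q : Fin n → ℝ := fun i => ∫ x in C, x i ^ 2 with hq
  set r : Fin n → ℝ := fun i => √(3 * q i / V) with hr
  have hJ : ∀ i, 0 < r i ∧ r i ≤ a i ∧
      V * ((∫ u in (0 : ℝ)..(r i), φ i u) / r i) ≤ ∫ x in C, φ i (x i) := by
    intro i
    exact JEN2.thm FUB.thm hC i (h.pos i) (fun x hx => (hx.1 i).2) (h2 i) (h.cont i) rfl
  have hprod : ∏ i, r i ≤ V :=
    BATH.thm n a φ h hC r (fun i => (hJ i).1) (fun i => (hJ i).2.1) (fun i => (hJ i).2.2)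
  have hq0 : ∀ i, 0 ≤ q i := fun i => integral_nonneg (fun x => sq_nonneg _)
  have hqi : ∀ i, q i / V = (1 / 3) * r i ^ 2 := by
    intro i
    simp only [hr]
    rw [Real.sq_sqrt (div_nonneg (mul_nonneg (by norm_num) (hq0 i)) hVpos.le)]
    ring
  have hdet : (covMatrix (ball a φ)).det = ∏ i, (q i / V) := by
    rw [hcov, Matrix.det_diagonal]
  have hdet0 : 0 ≤ ∏ i, (q i / V) := Finset.prod_nonneg fun i _ => div_nonneg (hq0 i) hVpos.le
  have hdet1 : ∏ i, (q i / V) ≤ (1 / 3 : ℝ) ^ n * V ^ 2 := by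
    calc ∏ i, (q i / V) = ∏ i, ((1 / 3 : ℝ) * r i ^ 2) := Finset.prod_congr rfl fun i _ => hqi i
      _ = (1 / 3 : ℝ) ^ n * (∏ i, r i) ^ 2 := by
          rw [Finset.prod_mul_distrib, Finset.prod_const, Finset.card_univ, Fintype.card_fin,
            Finset.prod_pow]
      _ ≤ (1 / 3 : ℝ) ^ n * V ^ 2 := by
          apply mul_le_mul_of_nonneg_left _ (by positivity)
          apply pow_le_pow_left₀ (Finset.prod_nonneg fun i _ => (hJ i).1.le) hprod
  have hb : (covMatrix (ball a φ)).det / vol (ball a φ) ^ 2 ≤ (1 / 12 : ℝ) ^ n := by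
    rw [hdet, hv, div_le_iff₀ (by positivity)]
    refine hdet1.trans (le_of_eq ?_)
    have h4 : ((2 : ℝ) ^ n * V) ^ 2 = 4 ^ n * V ^ 2 := by
      rw [mul_pow, ← pow_mul, mul_comm n 2, pow_mul]; norm_num
    rw [h4, ← mul_assoc, ← mul_pow]
    norm_num
  have h0 : 0 ≤ (covMatrix (ball a φ)).det / vol (ball a φ) ^ 2 := by
    rw [hdet]; exact div_nonneg hdet0 (sq_nonneg _)
  have hnpos : (0 : ℝ) < n := by exact_mod_cast (by omega : 0 < n)
  have h5 : isoConst (ball a φ) ≤ ((1 / 12 : ℝ) ^ n) ^ (1 / (2 * (n : ℝ))) :=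
    Real.rpow_le_rpow h0 hb (by positivity)
  refine h5.trans (le_of_eq ?_)
  rw [← Real.rpow_natCast, ← Real.rpow_mul (by positivity), Real.sqrt_eq_rpow]
  congr 1
  field_simp

theorem lp (n : ℕ) (hn : 1 ≤ n) (p : ℝ) (hp : 2 ≤ p) :
    isoConst {x : Fin n → ℝ | ∑ i, |x i| ^ p ≤ 1} ≤ √(1 / 12) := by
  rw [BODY.lp_eq n p (by linarith)]
  refine bound n hn _ _ (BODY.lp_orlicz n p (by linarith)) ?_
  intro i
  have h1 : ConvexOn ℝ (Icc (0 : ℝ) ((1 : ℝ) ^ 2)) (fun s : ℝ => s ^ (p / 2)) :=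
    (convexOn_rpow (by linarith)).subset (fun t ht => ht.1) (convex_Icc _ _)
  refine h1.congr ?_
  intro s hs
  show s ^ (p / 2) = (√s) ^ p
  rw [Real.sqrt_eq_rpow, ← Real.rpow_mul hs.1]
  congr 1
  ring

end Vale.P254.TWO
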